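import Vale.Agent.P074.Semi
import Vale.Agent.P074.Defs

namespace Vale.Agent.P074

open MeasureTheory Set Filter Topology
open scoped ENNReal RealInnerProductSpace

variable {d : ℕ}

noncomputable def cj (K : Set (EE d)) (u : EE d → ℝ) (q : EE d) : ℝ :=
  sSup ((fun x => ⟪x, q⟫ - u x) '' K)

lemma cj_ge {K : Set (EE d)} (hK : IsCompact K) {u : EE d → ℝ} (hu : Continuous u) (q : EE d)
    {x : EE d} (hx : x ∈ K) : ⟪x, q⟫ - u x ≤ cj K u q :=
  le_csSup (hK.image (by fun_prop)).bddAbove ⟨x, hx, rfl⟩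

lemma cj_le {K : Set (EE d)} (ne : K.Nonempty) {u : EE d → ℝ} {q : EE d} {c : ℝ}
    (h : ∀ x ∈ K, ⟪x, q⟫ - u x ≤ c) : cj K u q ≤ c :=
  csSup_le (ne.image _) (by rintro _ ⟨x, hx, rfl⟩; exact h x hx)

lemma cj_lip {K : Set (EE d)} (hK : IsCompact K) (ne : K.Nonempty) {u : EE d → ℝ}
    (hu : Continuous u) {R : ℝ} (hKR : ∀ x ∈ K, ‖x‖ ≤ R) (q q' : EE d) :
    cj K u q ≤ cj K u q' + R * ‖q - q'‖ := by
  refine cj_le ne fun x hx => ?_
  have a := cj_ge hK hu q' hx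
  have b : ⟪x, q - q'⟫ ≤ R * ‖q - q'‖ :=
    (real_inner_le_norm _ _).trans (by gcongr; exact hKR x hx)
  rw [inner_sub_right] at b
  linarith

lemma cj_cont {K : Set (EE d)} (hK : IsCompact K) {u : EE d → ℝ} (hu : Continuous u) :
    Continuous (cj K u) :=
  hK.continuous_sSup (f := fun q x => ⟪x, q⟫ - u x) (by unfold Function.HasUncurry.uncurry; fun_prop)

noncomputable def gam (K : Set (EE d)) (u : EE d → ℝ) (x q : EE d) : ℝ := u x + cj K u q - ⟪x, q⟫

lemma gam_nonneg {K : Set (EE d)} (hK : IsCompact K) {u : EE d → ℝ} (hu : Continuous u) (q : EE d)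
    {x : EE d} (hx : x ∈ K) : 0 ≤ gam K u x q := by
  have := cj_ge hK hu q hx
  unfold gam; linarith

lemma gam_sub {K : Set (EE d)} (hK : IsCompact K) {u : EE d → ℝ} (hu : Continuous u) (x q : EE d)
    {x' : EE d} (hx : x' ∈ K) : u x - gam K u x q + ⟪x' - x, q⟫ ≤ u x' := by
  have := cj_ge hK hu q hx
  unfold gam; rw [inner_sub_left]; linarith

lemma gam_cont {K : Set (EE d)} (hK : IsCompact K) {u : EE d → ℝ} (hu : Continuous u) :
    Continuous fun p : EE d × EE d => gam K u p.1 p.2 := by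
  have := cj_cont hK hu
  unfold gam; fun_prop

lemma gam_cell {ι : Type} [Fintype ι] [Nonempty ι] {K : Set (EE d)} (hK : IsCompact K) {R : ℝ}
    (hKR : ∀ x ∈ K, ‖x‖ ≤ R) {y : ι → EE d} {ψ : ι → ℝ} {k : ι} {x : EE d}
    (hx : x ∈ cell K y ψ k) (q : EE d) : gam K (pot y ψ) x q ≤ 2 * R * ‖q - y k‖ := by
  have a := cj_lip hK ⟨x, hx.1⟩ (pot_cont y ψ) hKR q (y k)
  have b : cj K (pot y ψ) (y k) ≤ ψ k := cj_le ⟨x, hx.1⟩ fun x' _ => by
    have := pot_ge y ψ x' k
    rw [real_inner_comm] at this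
    linarith
  have c := abs_le.mp ((abs_real_inner_le_norm x (q - y k)).trans
    (mul_le_mul_of_nonneg_right (hKR x hx.1) (norm_nonneg _)))
  rw [inner_sub_right] at c
  unfold gam
  rw [cell_eq hx, real_inner_comm x (y k)]
  linarith

lemma intT {K Y : Set (EE d)} (hK : IsCompact K) (hY : IsCompact Y) {T : EE d → EE d}
    (mT : Measurable T) (h : ∀ᵐ x ∂(volume.restrict K), T x ∈ Y) {G : EE d × EE d → ℝ}
    (hG : Continuous G) : IntegrableOn (fun x => G (x, T x)) K := by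
  have fK : IsFiniteMeasure (volume.restrict K) := isFiniteMeasure_restrict.mpr hK.measure_lt_top.ne
  obtain ⟨B, hB⟩ := (hK.prod hY).exists_bound_of_continuousOn hG.continuousOn
  refine Integrable.of_bound (hG.measurable.comp (measurable_id.prodMk mT)).aestronglyMeasurable B ?_
  filter_upwards [h, ae_restrict_mem hK.measurableSet] with x h1 h2 using hB _ ⟨h2, h1⟩

lemma map_restr {K : Set (EE d)} (hK : IsCompact K) (h0 : volume K ≠ 0) {T : EE d → EE d}
    {μ : Measure (EE d)} : (unif K).map T = μ ↔ (volume.restrict K).map T = volume K • μ := by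
  have ht := hK.measure_lt_top (μ := volume) |>.ne
  unfold unif
  rw [Measure.map_smul]
  constructor
  · rintro rfl
    rw [smul_smul, ENNReal.mul_inv_cancel h0 ht, one_smul]
  · intro h
    rw [h, smul_smul, ENNReal.inv_mul_cancel h0 ht, one_smul]

lemma ae_mem {K Y : Set (EE d)} (hK : IsCompact K) (h0 : volume K ≠ 0) (hY : IsCompact Y)
    {T : EE d → EE d} (mT : Measurable T) {μ : Measure (EE d)} (hμ : μ Yᶜ = 0)
    (h : (unif K).map T = μ) : ∀ᵐ x ∂(volume.restrict K), T x ∈ Y := by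
  rw [map_restr hK h0] at h
  refine ae_of_ae_map mT.aemeasurable (p := fun q => q ∈ Y) ?_
  rw [h]
  exact Measure.ae_smul_measure hμ _

lemma lint_sq {K : Set (EE d)} {f : EE d → EE d} (hf : IntegrableOn (fun x => ‖f x‖ ^ 2) K) :
    ∫⁻ x, ‖f x‖ₑ ^ 2 ∂(unif K) = (volume K)⁻¹ * ENNReal.ofReal (∫ x in K, ‖f x‖ ^ 2) := by
  unfold unif
  rw [lintegral_smul_measure, ofReal_integral_eq_lintegral_ofReal hf
    (ae_of_all _ fun x => sq_nonneg _), smul_eq_mul]
  congr 2; ext x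
  rw [ENNReal.ofReal_pow (norm_nonneg _), ofReal_norm_eq_enorm]

lemma gam_diff {K Y : Set (EE d)} (hK : IsCompact K) (h0 : volume K ≠ 0) (hY : IsCompact Y)
    {u : EE d → ℝ} (hu : Continuous u) {T S : EE d → EE d} (mT : Measurable T) (mS : Measurable S)
    {μ : Measure (EE d)} (hμ : μ Yᶜ = 0) (hT : (unif K).map T = μ) (hS : (unif K).map S = μ) :
    (∫ x in K, gam K u x (T x)) ≤ ∫ x in K, gam K u x (S x) ↔
      ∫⁻ x, ‖x - T x‖ₑ ^ 2 ∂(unif K) ≤ ∫⁻ x, ‖x - S x‖ₑ ^ 2 ∂(unif K) := by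
  have cc := cj_cont hK hu
  have key : ∀ T : EE d → EE d, Measurable T → (unif K).map T = μ →
      ∫ x in K, gam K u x (T x) = (∫ x in K, (u x - ‖x‖ ^ 2 / 2))
        + (∫ q, (cj K u q - ‖q‖ ^ 2 / 2) ∂(volume K • μ)) + 1 / 2 * (∫ x in K, ‖x - T x‖ ^ 2) ∧
      ∫⁻ x, ‖x - T x‖ₑ ^ 2 ∂(unif K) = (volume K)⁻¹ * ENNReal.ofReal (∫ x in K, ‖x - T x‖ ^ 2) := by
    intro T mT hT
    have a := ae_mem hK h0 hY mT hμ hT
    have i1 : IntegrableOn (fun x => ‖x - T x‖ ^ 2) K :=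
      intT hK hY mT a (G := fun p => ‖p.1 - p.2‖ ^ 2) (by fun_prop)
    have i2 : IntegrableOn (fun x => cj K u (T x) - ‖T x‖ ^ 2 / 2) K :=
      intT hK hY mT a (G := fun p => cj K u p.2 - ‖p.2‖ ^ 2 / 2) (by fun_prop)
    have i3 : IntegrableOn (fun x => u x - ‖x‖ ^ 2 / 2) K := intOn hK subset_rfl (by fun_prop)
    have i4 : IntegrableOn (fun x => u x - ‖x‖ ^ 2 / 2 + (cj K u (T x) - ‖T x‖ ^ 2 / 2)) K :=
      i3.add i2
    refine ⟨?_, lint_sq i1⟩
    rw [← (map_restr hK h0).mp hT, integral_map mT.aemeasurable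
      (by fun_prop : Continuous _).aestronglyMeasurable, ← integral_const_mul,
      ← integral_add i3 i2, ← integral_add i4 (i1.const_mul _)]
    congr 1; ext x
    simp only [gam, norm_sub_sq_real]; ring
  obtain ⟨a1, a2⟩ := key T mT hT
  obtain ⟨b1, b2⟩ := key S mS hS
  rw [a1, a2, b1, b2, ENNReal.mul_le_mul_iff_right (ENNReal.inv_ne_zero.mpr hK.measure_lt_top.ne)
    (ENNReal.inv_ne_top.mpr h0), ENNReal.ofReal_le_ofReal_iff (integral_nonneg fun x => sq_nonneg _)]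
  constructor <;> intro h <;> linarith

lemma ot_of_gap {K Y : Set (EE d)} (hK : IsCompact K) (h0 : volume K ≠ 0) (hY : IsCompact Y)
    {u : EE d → ℝ} (hu : Continuous u) {T : EE d → EE d} (mT : Measurable T)
    (hμ : (unif K).map T Yᶜ = 0) (h : ∀ x ∈ K, gam K u x (T x) ≤ 0) :
    IsOT (unif K) ((unif K).map T) T := by
  refine ⟨mT, rfl, fun S mS hS => (gam_diff hK h0 hY hu mT mS hμ rfl hS).mp ?_⟩
  exact (setIntegral_nonpos hK.measurableSet h).trans
    (setIntegral_nonneg hK.measurableSet fun x hx => gam_nonneg hK hu _ hx)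

end Vale.Agent.P074
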