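import Vale.Agent.P074.Cell

namespace Vale.Agent.P074

open MeasureTheory Set Filter Topology
open scoped ENNReal RealInnerProductSpace

variable {d : ℕ}

lemma shift_le {K A : Set (EE d)} (hK : IsCompact K) (w : EE d) (hA : ∀ x ∈ A, x + w ∈ K)
    {h : EE d → ℝ} (hh : Continuous h) (h0 : ∀ x ∈ K, 0 ≤ h x) :
    ∫ x in A, h (x + w) ≤ ∫ x in K, h x := by
  rw [← (measurePreserving_add_right volume w).setIntegral_image_emb
    (measurableEmbedding_addRight w) h A]
  refine setIntegral_mono_set (intOn hK subset_rfl hh)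
    ((ae_restrict_iff' hK.measurableSet).mpr (ae_of_all _ h0)) (HasSubset.Subset.eventuallyLE ?_)
  rintro _ ⟨x, hx, rfl⟩
  exact hA x hx

lemma pt_gap {δ r L b1 b2 b3 M : ℝ} (hr : 0 < r) (hδ : |δ| ≤ 2 * L) (hM : 0 ≤ M)
    (h : r * |δ| ≤ |b1| + |b2| + |b3| + M) :
    δ ^ 2 ≤ 3 / r ^ 2 * (b1 ^ 2 + b2 ^ 2 + b3 ^ 2) + 4 * L / r * M := by
  have e : 3 / r ^ 2 * (b1 ^ 2 + b2 ^ 2 + b3 ^ 2) + 4 * L / r * M
      = (3 * (b1 ^ 2 + b2 ^ 2 + b3 ^ 2) + 4 * L * r * M) / r ^ 2 := by field_simp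
  rw [e, le_div_iff₀ (by positivity), ← sq_abs δ, ← sq_abs b1, ← sq_abs b2, ← sq_abs b3]
  have h0 : 0 ≤ r * |δ| := by positivity
  have h1 := mul_le_mul_of_nonneg_left h h0
  have h2 : r * |δ| * M ≤ r * (2 * L) * M := by gcongr
  generalize |b1| = a1 at *
  generalize |b2| = a2 at *
  generalize |b3| = a3 at *
  nlinarith [sq_nonneg (r * |δ| - (a1 + a2 + a3)), sq_nonneg (a1 - a2), sq_nonneg (a1 - a3),
    sq_nonneg (a2 - a3)]

section
variable {K : Set (EE d)} (hK : IsCompact K) {u u' : EE d → ℝ} (hu : Continuous u)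
  (hu' : Continuous u') {L : ℝ} (hL : ∀ x y, |u x - u y| ≤ L * ‖x - y‖) {T S : EE d → EE d}
  (mT : Measurable T) (mS : Measurable S) {γ γ' : EE d → ℝ} (iγ : IntegrableOn γ K)
  (iγ' : IntegrableOn γ' K)
  (H : ∀ᵐ x ∂(volume.restrict K), ‖T x‖ ≤ L ∧ ‖S x‖ ≤ L ∧ 0 ≤ γ x ∧ 0 ≤ γ' x ∧
    (∀ x' ∈ K, u x - γ x + ⟪x' - x, T x⟫ ≤ u x') ∧ ∀ x' ∈ K, u' x - γ' x + ⟪x' - x, S x⟫ ≤ u' x')
include hK hu hu' hL mT mS iγ iγ' H

lemma dir_gap {A : Set (EE d)} (mA : MeasurableSet A) (sA : A ⊆ K) {r : ℝ} (hr : 0 < r)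
    (hL0 : 0 ≤ L) {e : EE d} (he : ‖e‖ = 1) (hA : ∀ x ∈ A, x + r • e ∈ K ∧ x + -(r • e) ∈ K)
    (c : ℝ) :
    ∫ x in A, ⟪e, S x - T x⟫ ^ 2 ≤ 9 / r ^ 2 * (∫ x in K, (u' x - u x - c) ^ 2)
      + 4 * L / r * (2 * (L * r) * ((∫ _x in K, (1 : ℝ)) - ∫ _x in A, (1 : ℝ))
        + 2 * (∫ x in K, γ x) + ∫ x in K, γ' x) := by
  obtain ⟨w, hw⟩ : ∃ w, w = r • e := ⟨_, rfl⟩
  rw [← hw] at hA
  have nw : ‖w‖ = r := by rw [hw, norm_smul, he, Real.norm_of_nonneg hr.le, mul_one]
  obtain ⟨f, hf⟩ : ∃ f : EE d → ℝ, f = fun x => u' x - u x - c := ⟨_, rfl⟩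
  obtain ⟨g, hg⟩ : ∃ g : EE d → ℝ, g = fun x => u (x + w) - u x := ⟨_, rfl⟩
  have cf : Continuous f := by rw [hf]; fun_prop
  have cg : Continuous g := by rw [hg]; fun_prop
  have gb : ∀ x, |g x| ≤ L * r := fun x => by
    have := hL (x + w) x
    rw [add_sub_cancel_left, nw] at this
    rw [hg]; exact this
  have HA := ae_restrict_of_ae_restrict_of_subset sA H
  have i1 : IntegrableOn (fun x => f x ^ 2 + f (x + w) ^ 2 + f (x + -w) ^ 2) A :=
    intOn hK sA (by fun_prop)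
  have i2 : IntegrableOn (fun x => g x - g (x + -w)) A := intOn hK sA (by fun_prop)
  have i3 := iγ.mono_set sA
  have i4 := iγ'.mono_set sA
  have i5 : IntegrableOn (fun x => g x - g (x + -w) + 2 * γ x) A := i2.add (i3.const_mul 2)
  have i6 : IntegrableOn (fun x => g x - g (x + -w) + 2 * γ x + γ' x) A := i5.add i4
  have a : ∫ x in A, ⟪e, S x - T x⟫ ^ 2 ≤ ∫ x in A, (3 / r ^ 2 * (f x ^ 2 + f (x + w) ^ 2
      + f (x + -w) ^ 2) + 4 * L / r * (g x - g (x + -w) + 2 * γ x + γ' x)) := by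
    refine integral_mono_of_nonneg (ae_of_all _ fun x => sq_nonneg _)
      ((i1.const_mul _).add (i6.const_mul _)) ?_
    filter_upwards [HA, ae_restrict_mem mA] with x ⟨h1, h2, h3, h4, h5, h6⟩ hx
    have p1 := h5 _ (hA x hx).1
    have p2 := h5 _ (hA x hx).2
    have p3 := h6 _ (hA x hx).1
    have p4 := h6 _ (hA x hx).2
    simp only [add_sub_cancel_left, inner_neg_left] at p1 p2 p3 p4
    have eg : g x - g (x + -w) = u (x + w) + u (x + -w) - 2 * u x := by
      simp only [hg, neg_add_cancel_right]; ring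
    refine pt_gap hr ?_ (by rw [eg]; linarith) ?_
    · refine (abs_real_inner_le_norm _ _).trans ?_
      have := norm_sub_le (S x) (T x)
      rw [he]; linarith
    · have e1 : r * |⟪e, S x - T x⟫| = |⟪w, S x⟫ - ⟪w, T x⟫| := by
        rw [← inner_sub_right, hw, inner_smul_left, abs_mul, conj_trivial, abs_of_pos hr]
      have q1 := abs_le.mp (le_refl |f x|)
      have q2 := abs_le.mp (le_refl |f (x + w)|)
      have q3 := abs_le.mp (le_refl |f (x + -w)|)
      have q4 := abs_nonneg (f (x + w))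
      have q5 := abs_nonneg (f (x + -w))
      have f1 : f x = u' x - u x - c := by rw [hf]
      have f2 : f (x + w) = u' (x + w) - u (x + w) - c := by rw [hf]
      have f3 : f (x + -w) = u' (x + -w) - u (x + -w) - c := by rw [hf]
      rw [e1, eg, abs_le]
      constructor <;> linarith
  refine a.trans ?_
  rw [integral_add (i1.const_mul _) (i6.const_mul _), integral_const_mul, integral_const_mul,
    integral_add i5 i4, integral_add i2 (i3.const_mul 2), integral_const_mul,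
    integral_add (intOn hK sA (by fun_prop)) (intOn hK sA (by fun_prop)),
    integral_add (intOn hK sA (by fun_prop)) (intOn hK sA (by fun_prop)),
    integral_sub (intOn hK sA (by fun_prop)) (intOn hK sA (by fun_prop))]
  have z : ∀ x ∈ A, x + 0 ∈ K := fun x hx => by simpa using sA hx
  have s1 := shift_le hK 0 z (h := fun x => f x ^ 2) (by fun_prop) fun x _ => sq_nonneg _
  have s2 := shift_le hK w (fun x hx => (hA x hx).1) (h := fun x => f x ^ 2) (by fun_prop)
    fun x _ => sq_nonneg _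
  have s3 := shift_le hK (-w) (fun x hx => (hA x hx).2) (h := fun x => f x ^ 2) (by fun_prop)
    fun x _ => sq_nonneg _
  have s4 := shift_le hK 0 z (h := fun x => L * r * 1 + g x) (by fun_prop)
    fun x _ => by have := abs_le.mp (gb x); linarith
  have s5 := shift_le hK (-w) (fun x hx => (hA x hx).2) (h := fun x => L * r * 1 - g x)
    (by fun_prop) fun x _ => by have := abs_le.mp (gb x); linarith
  simp only [add_zero] at s1 s4
  rw [integral_add (intOn hK sA (by fun_prop)) (intOn hK sA (by fun_prop)),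
    integral_add (intOn hK subset_rfl (by fun_prop)) (intOn hK subset_rfl (by fun_prop)),
    integral_const_mul, integral_const_mul] at s4
  rw [integral_sub (intOn hK sA (by fun_prop)) (intOn hK sA (by fun_prop)),
    integral_sub (intOn hK subset_rfl (by fun_prop)) (intOn hK subset_rfl (by fun_prop)),
    integral_const_mul, integral_const_mul] at s5
  have s6 : ∫ x in A, γ x ≤ ∫ x in K, γ x :=
    setIntegral_mono_set iγ (H.mono fun x h => h.2.2.1) sA.eventuallyLE
  have s7 : ∫ x in A, γ' x ≤ ∫ x in K, γ' x :=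
    setIntegral_mono_set iγ' (H.mono fun x h => h.2.2.2.1) sA.eventuallyLE
  have ef : ∫ x in K, (u' x - u x - c) ^ 2 = ∫ x in K, f x ^ 2 := by rw [hf]
  rw [ef]
  refine add_le_add ?_ (mul_le_mul_of_nonneg_left (by linarith) (by positivity))
  calc _ ≤ 3 / r ^ 2 * (3 * ∫ x in K, f x ^ 2) := by gcongr; linarith
    _ = _ := by ring

lemma gap_le (hc : Convex ℝ K) {x0 : EE d} {r0 : ℝ} (hr0 : 0 < r0)
    (hB : Metric.closedBall x0 r0 ⊆ K) (hL0 : 0 ≤ L) {t : ℝ} (ht : 0 < t) (ht1 : t ≤ 1) (c : ℝ) :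
    ∫ x in K, ‖T x - S x‖ ^ 2 ≤ d * (9 / (t * r0) ^ 2 * (∫ x in K, (u' x - u x - c) ^ 2)
      + 4 * L / (t * r0) * (2 * (∫ x in K, γ x) + ∫ x in K, γ' x))
      + (8 * d + 4) * L ^ 2 * (d * t * ∫ _x in K, (1 : ℝ)) := by
  obtain ⟨A, hA⟩ : ∃ A, A = AffineMap.homothety x0 (1 - t) '' K := ⟨_, rfl⟩
  have cA : IsCompact A := by rw [hA]; exact hK.image (AffineMap.homothety_continuous _ _)
  have key : ∀ x ∈ A, ∀ w : EE d, ‖w‖ ≤ r0 → x + t • w ∈ K := by
    rw [hA]
    rintro _ ⟨k, hk, rfl⟩ w hw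
    have := hc hk (hB (a := x0 + w) (by simpa using hw)) (a := 1 - t) (b := t) (by linarith) ht.le
      (by ring)
    convert this using 1
    simp only [AffineMap.homothety_apply, vsub_eq_sub, vadd_eq_add]
    module
  have sA : A ⊆ K := fun x hx => by simpa using key x hx 0 (by simpa using hr0.le)
  have vA : (∫ _x in K, (1 : ℝ)) - ∫ _x in A, (1 : ℝ) ≤ d * t * ∫ _x in K, (1 : ℝ) := by
    simp only [integral_const, MeasurableSet.univ, measureReal_restrict_apply, univ_inter,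
      smul_eq_mul, mul_one]
    have : volume.real A = (1 - t) ^ d * volume.real K := by
      rw [hA, measureReal_def, Measure.addHaar_image_homothety, ENNReal.toReal_mul,
        ENNReal.toReal_ofReal (abs_nonneg _), finrank_euclideanSpace_fin,
        abs_of_nonneg (pow_nonneg (by linarith) _), measureReal_def]
    have b := one_add_mul_le_pow (a := -t) (by linarith) d
    have := mul_le_mul_of_nonneg_right b (measureReal_nonneg (μ := volume) (s := K))
    rw [← sub_eq_add_neg] at this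
    linarith
  have fK : IsFiniteMeasure (volume.restrict K) := isFiniteMeasure_restrict.mpr hK.measure_lt_top.ne
  have nb : ∀ᵐ x ∂(volume.restrict K), ‖T x - S x‖ ≤ 2 * L := H.mono fun x h => by
    have := norm_sub_le (T x) (S x); linarith [h.1, h.2.1]
  have iN : IntegrableOn (fun x => ‖T x - S x‖ ^ 2) K :=
    Integrable.of_bound (by fun_prop : Measurable _).aestronglyMeasurable ((2 * L) ^ 2)
      (nb.mono fun x h => by rw [Real.norm_of_nonneg (sq_nonneg _)]; gcongr)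
  have a1 : ∫ x in A, (4 * L ^ 2 * 1 - ‖T x - S x‖ ^ 2) ≤ ∫ x in K, (4 * L ^ 2 * 1 - ‖T x - S x‖ ^ 2) :=
    setIntegral_mono_set ((intOn hK subset_rfl (by fun_prop)).sub iN) (nb.mono fun x h => by
      have : ‖T x - S x‖ ^ 2 ≤ (2 * L) ^ 2 := by gcongr
      simp only [Pi.zero_apply]; linarith) sA.eventuallyLE
  rw [integral_sub (intOn hK subset_rfl (by fun_prop)) iN,
    integral_sub (intOn hK sA (by fun_prop)) (iN.mono_set sA), integral_const_mul,
    integral_const_mul] at a1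
  have ec : ∀ x, ‖T x - S x‖ ^ 2 = ∑ i, ⟪EuclideanSpace.single i (1 : ℝ), S x - T x⟫ ^ 2 := by
    intro x
    rw [norm_sub_rev, EuclideanSpace.real_norm_sq_eq]
    simp [EuclideanSpace.inner_single_left]
  have a2 : ∫ x in A, ‖T x - S x‖ ^ 2
      = ∑ i, ∫ x in A, ⟪EuclideanSpace.single i (1 : ℝ), S x - T x⟫ ^ 2 := by
    simp_rw [ec]
    refine integral_finsetSum _ fun i _ => ?_
    refine (iN.mono_set sA).mono' (by fun_prop : Measurable _).aestronglyMeasurable
      (ae_of_all _ fun x => ?_)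
    rw [Real.norm_of_nonneg (sq_nonneg _), ec]
    exact Finset.single_le_sum (f := fun i => ⟪EuclideanSpace.single i (1 : ℝ), S x - T x⟫ ^ 2)
      (fun _ _ => sq_nonneg _) (Finset.mem_univ i)
  have hr : 0 < t * r0 := by positivity
  have a3 := Finset.sum_le_sum (s := Finset.univ) fun (i : Fin d) _ =>
    dir_gap hK hu hu' hL mT mS iγ iγ' H cA.measurableSet sA hr hL0
      (e := EuclideanSpace.single i (1 : ℝ)) (by simp) (fun x hx => by
        constructor
        · rw [mul_smul]; exact key x hx _ (by simp [norm_smul, abs_of_pos hr0])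
        · rw [mul_smul, ← smul_neg]; exact key x hx _ (by simp [norm_smul, abs_of_pos hr0])) c
  rw [← a2, Finset.sum_const, Finset.card_univ, Fintype.card_fin, nsmul_eq_mul] at a3
  obtain ⟨m, hm⟩ : ∃ m, m = (∫ _x in K, (1 : ℝ)) - ∫ _x in A, (1 : ℝ) := ⟨_, rfl⟩
  rw [← hm] at a3 vA
  have e : ∀ X : ℝ, 4 * L / (t * r0) * (2 * (L * (t * r0)) * m + X)
      = 8 * L ^ 2 * m + 4 * L / (t * r0) * X := fun X => by field_simp; ring
  rw [add_assoc (2 * (L * (t * r0)) * m), e] at a3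
  have := mul_le_mul_of_nonneg_left vA (by positivity : 0 ≤ (8 * (d : ℝ) + 4) * L ^ 2)
  have e3 : 4 * L ^ 2 * m = 4 * L ^ 2 * (∫ _x in K, (1 : ℝ)) - 4 * L ^ 2 * ∫ _x in A, (1 : ℝ) := by
    rw [hm]; ring
  linarith

end

end Vale.Agent.P074
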