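import Vale.Agent.P074.Semi

namespace Vale.Agent.P074

open MeasureTheory Set Filter Topology ProbabilityTheory
open scoped ENNReal RealInnerProductSpace unitInterval

variable {d : ℕ}

lemma cdf_unif (l : Measure ℝ) [IsProbabilityMeasure l] (h0 : ∀ c, l {c} = 0) :
    ∃ U : ℝ → I, Measurable U ∧ l.map U = volume := by
  have mc : Measurable (cdf l) := (monotone_cdf l).measurable
  have mU : Measurable fun x => (⟨cdf l x, cdf_nonneg l x, cdf_le_one l x⟩ : I) := mc.subtype_mk
  refine ⟨_, mU, Measure.ext_of_Iic _ _ fun t => ?_⟩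
  rw [Measure.map_apply mU measurableSet_Iic, unitInterval.volume_Iic]
  obtain ⟨S, hS⟩ : ∃ S : Set ℝ, S = {x | cdf l x ≤ t} := ⟨_, rfl⟩
  have mS : MeasurableSet S := by rw [hS]; exact measurableSet_le mc measurable_const
  have e : (fun x => (⟨cdf l x, cdf_nonneg l x, cdf_le_one l x⟩ : I)) ⁻¹' Iic t = S := by
    rw [hS]; rfl
  rw [e]
  have a : l S ≤ ENNReal.ofReal t := by
    rw [mS.measure_eq_iSup_isCompact]
    refine iSup_le fun C => iSup_le fun hC => iSup_le fun cC => ?_
    rcases C.eq_empty_or_nonempty with rfl | ne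
    · simp
    · obtain ⟨a, ha, hm⟩ := cC.exists_isGreatest ne
      refine (measure_mono (t := Iic a) fun x hx => hm hx).trans ?_
      rw [← ofReal_cdf]
      have := hC ha
      rw [hS] at this
      exact ENNReal.ofReal_le_ofReal this
  have b : l Sᶜ ≤ 1 - ENNReal.ofReal t := by
    rw [mS.compl.measure_eq_iSup_isCompact]
    refine iSup_le fun C => iSup_le fun hC => iSup_le fun cC => ?_
    rcases C.eq_empty_or_nonempty with rfl | ne
    · simp
    · obtain ⟨a, ha, hm⟩ := cC.exists_isLeast ne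
      refine (measure_mono (t := {a} ∪ (Iic a)ᶜ) fun x hx => ?_).trans ?_
      · rcases (hm hx).eq_or_lt with h | h
        · exact Or.inl h.symm
        · exact Or.inr (not_le.mpr h)
      · refine (measure_union_le _ _).trans ?_
        rw [h0, zero_add, prob_compl_eq_one_sub measurableSet_Iic, ← ofReal_cdf]
        have := hC ha
        rw [hS] at this
        exact tsub_le_tsub_left (ENNReal.ofReal_le_ofReal (le_of_not_ge this)) _
  refine le_antisymm a ?_
  have c : l S = 1 - l Sᶜ := by rw [← prob_compl_eq_one_sub mS.compl, compl_compl]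
  rw [c]
  refine le_trans ?_ (tsub_le_tsub_left b _)
  rw [ENNReal.sub_sub_cancel ENNReal.one_ne_top (ENNReal.ofReal_le_one.mpr t.2.2)]

lemma exists_push {w : EE d} (hw : w ≠ 0) {C : Set (EE d)} (m : Measure (EE d))
    (h : volume C = m univ) (h0 : m univ ≠ 0) (ht : m univ ≠ ⊤) :
    ∃ T : EE d → EE d, Measurable T ∧ (volume.restrict C).map T = m := by
  have mw : Measurable fun x : EE d => ⟪w, x⟫ := by fun_prop
  have p1 : IsProbabilityMeasure ((m univ)⁻¹ • volume.restrict C) :=
    ⟨by simp [h, ENNReal.inv_mul_cancel h0 ht]⟩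
  have p2 : IsProbabilityMeasure ((m univ)⁻¹ • m) := ⟨by simp [ENNReal.inv_mul_cancel h0 ht]⟩
  have p3 := Measure.isProbabilityMeasure_map (μ := (m univ)⁻¹ • volume.restrict C)
    mw.aemeasurable
  obtain ⟨U, mU, hU⟩ := cdf_unif (((m univ)⁻¹ • volume.restrict C).map fun x => ⟪w, x⟫) fun c => by
    rw [Measure.map_apply mw (measurableSet_singleton c), Measure.smul_apply]
    have : volume.restrict C ((fun x => ⟪w, x⟫) ⁻¹' {c}) = 0 :=
      le_antisymm ((Measure.restrict_le_self _).trans (hyper_null hw c).le) bot_le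
    rw [this, smul_zero]
  obtain ⟨f, mf, hf⟩ := Measure.exists_measurable_map_eq ((m univ)⁻¹ • m)
  refine ⟨f ∘ U ∘ fun x => ⟪w, x⟫, by fun_prop, ?_⟩
  have : ((m univ)⁻¹ • volume.restrict C).map (f ∘ U ∘ fun x => ⟪w, x⟫) = (m univ)⁻¹ • m := by
    rw [← Measure.map_map mf (mU.comp mw), ← Measure.map_map mU mw, hU, hf]
  rw [Measure.map_smul] at this
  have := congrArg (fun ν => m univ • ν) this
  simpa [smul_smul, ENNReal.mul_inv_cancel h0 ht] using this

lemma rearr {ι : Type} [Fintype ι] {w : EE d} (hw : w ≠ 0) {C : ι → Set (EE d)}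
    (mC : ∀ k, MeasurableSet (C k)) (dC : Pairwise (Function.onFun (AEDisjoint volume) C))
    (m : ι → Measure (EE d)) (h : ∀ k, volume (C k) = m k univ) (h0 : ∀ k, m k univ ≠ 0)
    (ht : ∀ k, m k univ ≠ ⊤) :
    ∃ T : EE d → EE d, Measurable T ∧ (∀ k, (volume.restrict (C k)).map T = m k) ∧
      (volume.restrict (⋃ k, C k)).map T = ∑ k, m k := by
  classical
  choose T mT hT using fun k => exists_push hw (m k) (h k) (h0 k) (ht k)
  have mS : Measurable fun x => ∑ k, (C k).indicator (T k) x :=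
    Finset.measurable_fun_sum _ fun k _ => (mT k).indicator (mC k)
  have e : ∀ k, (volume.restrict (C k)).map (fun x => ∑ k, (C k).indicator (T k) x) = m k := by
    intro k
    rw [← hT k]
    refine Measure.map_congr ?_
    have : ∀ᵐ x ∂(volume.restrict (C k)), ∀ l, l ≠ k → x ∉ C l := by
      refine ae_all_iff.mpr fun l => ?_
      by_cases hl : l = k
      · simp [hl]
      · have : volume.restrict (C k) (C l) = 0 := by
          rw [Measure.restrict_apply (mC l)]; exact dC hl
        filter_upwards [measure_eq_zero_iff_ae_notMem.mp this] with x hx _ using hx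
    filter_upwards [this, ae_restrict_mem (mC k)] with x hx hk
    rw [Finset.sum_eq_single k (fun l _ hl => indicator_of_notMem (hx l hl) _) (by simp),
      indicator_of_mem hk]
  refine ⟨_, mS, e, ?_⟩
  rw [Measure.restrict_iUnion_ae dC fun k => (mC k).nullMeasurableSet,
    Measure.map_sum mS.aemeasurable, Measure.sum_fintype]
  exact Finset.sum_congr rfl fun k _ => e k

lemma exists_simple {X : Type} [PseudoMetricSpace X] [MeasurableSpace X] [OpensMeasurableSpace X]
    {S : Set X} (hS : IsCompact S) (ne : S.Nonempty) {ε : ℝ} (hε : 0 < ε) :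
    ∃ φ : SimpleFunc X X, (∀ x, φ x ∈ S) ∧ ∀ x ∈ S, dist (φ x) x < ε := by
  obtain ⟨t, ts, tf, ht⟩ := hS.finite_cover_balls hε
  have tne : t.Nonempty := by
    obtain ⟨x, hx⟩ := ne
    obtain ⟨y, hy, -⟩ := mem_iUnion₂.mp (ht hx)
    exact ⟨y, hy⟩
  obtain ⟨e, he⟩ := tf.countable.exists_eq_range tne
  have : ∀ y ∈ t, ∃ k, e k = y := fun y hy => by rw [he] at hy; exact hy
  choose! n hn using this
  obtain ⟨N, hN⟩ := (tf.image n).bddAbove
  refine ⟨SimpleFunc.nearestPt e N, fun x => ts (by rw [he]; exact ⟨_, rfl⟩), fun x hx => ?_⟩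
  obtain ⟨y, hy, hxy⟩ := mem_iUnion₂.mp (ht hx)
  have := SimpleFunc.edist_nearestPt_le e x (hN ⟨y, hy, rfl⟩)
  rw [hn y hy, edist_dist, edist_dist, ENNReal.ofReal_le_ofReal_iff dist_nonneg] at this
  exact this.trans_lt (by rw [dist_comm]; exact hxy)

lemma exists_shift {ι : Type} [Fintype ι] {w : EE d} (hw : w ≠ 0) (a b : ι → EE d) {ε : ℝ}
    (hε : 0 < ε) : ∃ s : ι → EE d, (∀ k, ‖s k‖ ≤ ε) ∧
      ∀ τ : ℚ, Function.Injective fun k => (a k + s k) + (τ : ℝ) • b k := by
  obtain ⟨n, ⟨f⟩⟩ := Finite.exists_equiv_fin ι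
  have nw : 0 < ‖w‖ := norm_pos_iff.mpr hw
  have cB : (⋃ τ : ℚ, ⋃ k, ⋃ l, {δ : ℝ | k ≠ l ∧ (a k + (δ * (f k : ℕ)) • w) + (τ : ℝ) • b k
      = (a l + (δ * (f l : ℕ)) • w) + (τ : ℝ) • b l}).Countable := by
    refine countable_iUnion fun τ => countable_iUnion fun k => countable_iUnion fun l =>
      Set.Subsingleton.countable fun δ h1 δ' h2 => ?_
    have : ((δ - δ') * (((f k : ℕ) : ℝ) - (f l : ℕ))) • w = 0 := by
      have e1 := h1.2
      have e2 := h2.2
      linear_combination (norm := module) e1 - e2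
    rcases smul_eq_zero.mp this with h | h
    · rcases mul_eq_zero.mp h with h | h
      · linarith
      · exact (h1.1 (f.injective (Fin.ext (by exact_mod_cast sub_eq_zero.mp h)))).elim
    · exact (hw h).elim
  obtain ⟨δ, hδ, h0, h1⟩ := cB.dense_compl ℝ |>.exists_mem_open isOpen_Ioo
    (nonempty_Ioo.mpr (by positivity : 0 < ε / (‖w‖ * (n + 1))))
  refine ⟨fun k => (δ * (f k : ℕ)) • w, fun k => ?_, fun τ k l h => ?_⟩
  · rw [norm_smul, Real.norm_of_nonneg (by positivity)]
    have : ((f k : ℕ) : ℝ) ≤ n + 1 := by have := (f k).2; exact_mod_cast (by omega)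
    calc _ ≤ ε / (‖w‖ * (n + 1)) * (n + 1) * ‖w‖ := by gcongr
      _ = _ := by field_simp
  · by_contra hn
    exact hδ (mem_iUnion.mpr ⟨τ, mem_iUnion.mpr ⟨k, mem_iUnion.mpr ⟨l, hn, h⟩⟩⟩)

end Vale.Agent.P074
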