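import Vale.Agent.P074.Var
import Vale.Agent.P074.Gap
import Vale.Agent.P074.Rearr
import Vale.Agent.P074.Conj

namespace Vale.Agent.P074

open MeasureTheory Set Filter Topology
open scoped ENNReal RealInnerProductSpace

variable {d : ℕ}

lemma int_one (C : Set (EE d)) : ∫ _x in C, (1 : ℝ) = volume.real C := by simp

lemma half {ι : Type} [Fintype ι] [Nonempty ι] {w : EE d} (hw : w ≠ 0) {K Y : Set (EE d)}
    (hK : IsCompact K) (h0 : volume K ≠ 0) (hY : IsCompact Y) {R : ℝ} (hR : 0 < R)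
    (hKR : ∀ x ∈ K, ‖x‖ ≤ R) {μ : Measure (EE d)} (hμ : μ Yᶜ = 0) {m : ι → Measure (EE d)}
    (hm : ∑ k, m k = μ) (m0 : ∀ k, m k univ ≠ 0) (mt : ∀ k, m k univ ≠ ⊤) {y : ι → EE d}
    (hy : Function.Injective y) {ψ : ι → ℝ}
    (h : Opt K (fun k => volume.real K * (m k univ).toReal) (fun _ => 1) y ψ) {η : ℝ}
    (hη : ∀ k, ∀ᵐ q ∂(m k), ‖q - y k‖ ≤ η) {T : EE d → EE d} (hT : IsOT (unif K) μ T) :
    ∫ x in K, gam K (pot y ψ) x (T x) ≤ 2 * R * η * volume.real K := by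
  have ht := hK.measure_lt_top (μ := volume) |>.ne
  obtain ⟨S, mS, hS, hS'⟩ := rearr hw (cell_meas hK y ψ) (cell_disj K hy ψ)
    (fun k => volume K • m k) (fun k => by
      have := h k
      beta_reduce at this
      rw [int_one, measureReal_def, measureReal_def, ← ENNReal.toReal_mul,
        ENNReal.toReal_eq_toReal_iff' (ne_top_of_le_ne_top ht (measure_mono (cell_sub K y ψ k)))
          (ENNReal.mul_ne_top ht (mt k))] at this
      simpa using this) (fun k => mul_ne_zero h0 (m0 k))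
    (fun k => by simpa using ENNReal.mul_ne_top ht (mt k))
  rw [cell_union, ← Finset.smul_sum, hm, ← map_restr hK h0] at hS'
  have cu := pot_cont y ψ
  refine ((gam_diff hK h0 hY cu hT.1 mS hμ hT.2.1 hS').mpr (hT.2.2 S mS hS')).trans ?_
  have i1 : IntegrableOn (fun x => gam K (pot y ψ) x (S x)) K :=
    intT hK hY mS (ae_mem hK h0 hY mS hμ hS') (gam_cont hK cu)
  rw [← int_one, ← integral_const_mul, ← sum_cell hK hy ψ i1,
    ← sum_cell hK hy ψ (intOn hK subset_rfl (by fun_prop))]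
  refine Finset.sum_le_sum fun k _ => integral_mono_ae (i1.mono_set (cell_sub K y ψ k))
    (intOn hK (cell_sub K y ψ k) (by fun_prop)) ?_
  have : ∀ᵐ x ∂(volume.restrict (cell K y ψ k)), ‖S x - y k‖ ≤ η := by
    refine ae_of_ae_map mS.aemeasurable (p := fun q => ‖q - y k‖ ≤ η) ?_
    rw [hS k]
    exact Measure.ae_smul_measure (hη k) _
  filter_upwards [this, ae_restrict_mem (cell_meas hK y ψ k)] with x h1 h2
  refine (gam_cell hK hKR h2 _).trans ?_
  rw [mul_one]; gcongr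

lemma pot_lip {ι : Type} [Fintype ι] [Nonempty ι] {y : ι → EE d} {L : ℝ} (h : ∀ k, ‖y k‖ ≤ L)
    (ψ : ι → ℝ) (x x' : EE d) : |pot y ψ x - pot y ψ x'| ≤ L * ‖x - x'‖ := by
  have key : ∀ x x', pot y ψ x - pot y ψ x' ≤ L * ‖x - x'‖ := fun x x' => by
    obtain ⟨k, hk⟩ := pot_ex y ψ x
    have a := pot_ge y ψ x' k
    have b : ⟪y k, x - x'⟫ ≤ L * ‖x - x'‖ := (real_inner_le_norm _ _).trans (by gcongr; exact h k)
    rw [inner_sub_right] at b
    linarith
  have := key x' x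
  rw [norm_sub_rev] at this
  exact abs_le.mpr ⟨by linarith, key x x'⟩

lemma coup_ae {Y : Set (EE d)} {μ ν : Measure (EE d)} (hμ : μ Yᶜ = 0) (hν : ν Yᶜ = 0)
    {γ : Measure (EE d × EE d)} (h1 : γ.map Prod.fst = μ) (h2 : γ.map Prod.snd = ν) :
    ∀ᵐ p ∂γ, p ∈ Y ×ˢ Y := by
  filter_upwards [ae_of_ae_map (μ := γ) measurable_fst.aemeasurable (p := fun q => q ∈ Y)
    (by rw [h1]; exact hμ), ae_of_ae_map (μ := γ) measurable_snd.aemeasurable (p := fun q => q ∈ Y)
    (by rw [h2]; exact hν)] with p a b using ⟨a, b⟩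

lemma coup_prob {μ : Measure (EE d)} [IsProbabilityMeasure μ] {γ : Measure (EE d × EE d)}
    (h1 : γ.map Prod.fst = μ) : IsProbabilityMeasure γ := by
  refine ⟨?_⟩
  have := measure_univ (μ := μ)
  rwa [← h1, Measure.map_apply measurable_fst MeasurableSet.univ, preimage_univ] at this

lemma coup_int {Y : Set (EE d)} (hY : IsCompact Y) {γ : Measure (EE d × EE d)} [IsFiniteMeasure γ]
    (h : ∀ᵐ p ∂γ, p ∈ Y ×ˢ Y) : Integrable (fun p : EE d × EE d => ‖p.1 - p.2‖ ^ 2) γ := by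
  have c : Continuous fun p : EE d × EE d => ‖p.1 - p.2‖ ^ 2 := by fun_prop
  obtain ⟨B, hB⟩ := (hY.prod hY).exists_bound_of_continuousOn c.continuousOn
  exact Integrable.of_bound c.aestronglyMeasurable B (h.mono hB)

lemma approx {w : EE d} (hw : w ≠ 0) {K Y : Set (EE d)} (hK : IsCompact K) (hc : Convex ℝ K)
    (h0 : volume K ≠ 0) (hY : IsCompact Y) (ne : Y.Nonempty) {R : ℝ} (hR : 0 < R)
    (hKR : ∀ x ∈ K, ‖x‖ ≤ R) {L : ℝ} (hL : ∀ q ∈ Y, ‖q‖ ≤ L) {μ ν : Measure (EE d)}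
    [IsProbabilityMeasure μ] (hμ : μ Yᶜ = 0) (hν : ν Yᶜ = 0) {γ : Measure (EE d × EE d)}
    (h1 : γ.map Prod.fst = μ) (h2 : γ.map Prod.snd = ν) {T S : EE d → EE d}
    (hT : IsOT (unif K) μ T) (hS : IsOT (unif K) ν S) {ε : ℝ} (hε : 0 < ε) :
    ∃ u u' : EE d → ℝ, Continuous u ∧ Continuous u' ∧
      (∀ x y, |u x - u y| ≤ (L + ε) * ‖x - y‖) ∧
      ∫ x in K, gam K u x (T x) ≤ 2 * R * (2 * ε) * volume.real K ∧
      ∫ x in K, gam K u' x (S x) ≤ 2 * R * (2 * ε) * volume.real K ∧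
      ∃ c, ∫ x in K, (u' x - u x - c) ^ 2 ≤ 5000000000 * R ^ 2 * (volume.real K *
        (2 * (∫ p, ‖p.1 - p.2‖ ^ 2 ∂γ) + 8 * ε ^ 2)) := by
  classical
  have pγ := coup_prob h1
  have aγ := coup_ae hμ hν h1 h2
  obtain ⟨φ, φ1, φ2⟩ := exists_simple (hY.prod hY) (ne.prod ne) hε
  let ι := {p // p ∈ φ.range.filter fun p => γ (φ ⁻¹' {p}) ≠ 0}
  let P : ι → Set (EE d × EE d) := fun k => φ ⁻¹' {k.1}
  have mP : ∀ k, MeasurableSet (P k) := fun k => φ.measurableSet_fiber _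
  have P0 : ∀ k, γ (P k) ≠ 0 := fun k => (Finset.mem_filter.mp k.2).2
  have cov : ∀ᵐ p ∂γ, p ∈ ⋃ k, P k := by
    have : ∀ᵐ p ∂γ, ∀ q ∈ φ.range, γ (φ ⁻¹' {q}) = 0 → p ∉ φ ⁻¹' {q} := by
      rw [Finset.eventually_all]
      intro q _
      by_cases h : γ (φ ⁻¹' {q}) = 0
      · filter_upwards [measure_eq_zero_iff_ae_notMem.mp h] with p hp _ using hp
      · simp [h]
    filter_upwards [this] with p hp
    exact mem_iUnion.mpr ⟨⟨φ p, Finset.mem_filter.mpr ⟨φ.mem_range_self p,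
      fun h => hp _ (φ.mem_range_self p) h rfl⟩⟩, rfl⟩
  have hsum : ∑ k, γ.restrict (P k) = γ := by
    rw [← Measure.sum_fintype, ← Measure.restrict_iUnion (fun k l hkl => Disjoint.preimage _
      (disjoint_singleton.mpr fun h => hkl (Subtype.ext h))) mP]
    exact Measure.restrict_eq_self_of_ae_mem cov
  have nι : Nonempty ι := by
    obtain ⟨p, hp⟩ := cov.exists
    exact ⟨(mem_iUnion.mp hp).choose⟩
  have near : ∀ k, ∀ᵐ p ∂(γ.restrict (P k)), ‖p.1 - k.1.1‖ ≤ ε ∧ ‖p.2 - k.1.2‖ ≤ ε := by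
    intro k
    filter_upwards [ae_restrict_mem (mP k), ae_restrict_of_ae aγ] with p a b
    have c := (φ2 p b).le
    rw [show φ p = k.1 from a, dist_comm, Prod.dist_eq, max_le_iff, dist_eq_norm,
      dist_eq_norm] at c
    exact c
  obtain ⟨s, s1, s2⟩ := exists_shift hw (fun k : ι => k.1.1) (fun k => k.1.2 - k.1.1) hε
  obtain ⟨y, hy⟩ : ∃ y : ι → EE d, y = fun k => k.1.1 + s k := ⟨_, rfl⟩
  obtain ⟨v, hv⟩ : ∃ v : ι → EE d, v = fun k => k.1.2 - k.1.1 := ⟨_, rfl⟩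
  have inj : ∀ τ : ℚ, Function.Injective fun k => y k + (τ : ℝ) • v k := by rw [hy, hv]; exact s2
  have iy : Function.Injective y := by simpa using inj 0
  have iz : Function.Injective fun k => y k + v k := by simpa using inj 1
  have vK : 0 < volume.real K := ENNReal.toReal_pos h0 hK.measure_lt_top.ne
  obtain ⟨V, hV⟩ : ∃ V : ι → ℝ, V = fun k => volume.real K * (γ (P k)).toReal := ⟨_, rfl⟩
  have V0 : ∀ k, 0 < V k := fun k => by
    rw [hV]; exact mul_pos vK (ENNReal.toReal_pos (P0 k) (measure_ne_top _ _))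
  have sumint : ∀ f : EE d × EE d → ℝ, Integrable f γ →
      ∑ k, ∫ p in P k, f p ∂γ = ∫ p, f p ∂γ := fun f hf => by
    rw [← integral_finsetSum_measure fun k _ => hf.restrict, hsum]
  have Vs : ∑ k, V k = ∫ _x in K, (1 : ℝ) := by
    have := sumint (fun _ => 1) (integrable_const _)
    simp only [integral_const, smul_eq_mul, mul_one, measureReal_def, Measure.restrict_apply_univ,
      measure_univ, ENNReal.toReal_one] at this
    rw [int_one, hV, ← Finset.mul_sum, this, mul_one]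
  have c0 : Continuous fun _ : EE d => (1 : ℝ) := continuous_const
  have n0 : ∀ x ∈ K, 0 ≤ (fun _ : EE d => (1 : ℝ)) x := fun _ _ => zero_le_one
  obtain ⟨M, M0, hM⟩ := exists_M hR hKR y
  obtain ⟨ψ, -, hψ⟩ := exists_opt hK (fun k => (V0 k).le) c0 n0 Vs iy M0 hM
  obtain ⟨M', M0', hM'⟩ := exists_M hR hKR fun k => y k + v k
  obtain ⟨χ, -, hχ⟩ := exists_opt hK (fun k => (V0 k).le) c0 n0 Vs iz M0' hM'
  have H : ∀ (f : EE d × EE d → EE d) (μ : Measure (EE d)) (y : ι → EE d) (ψ : ι → ℝ)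
      (T : EE d → EE d), Measurable f → μ Yᶜ = 0 → γ.map f = μ → Function.Injective y →
      Opt K V (fun _ => 1) y ψ → (∀ k, ∀ᵐ p ∂(γ.restrict (P k)), ‖f p - y k‖ ≤ 2 * ε) →
      IsOT (unif K) μ T → ∫ x in K, gam K (pot y ψ) x (T x) ≤ 2 * R * (2 * ε) * volume.real K := by
    intro f μ y ψ T mf hμ h1 iy hψ hn hT
    have e : ∀ k, ((γ.restrict (P k)).map f) univ = γ (P k) := fun k => by
      rw [Measure.map_apply mf MeasurableSet.univ]; simp
    refine half hw hK h0 hY hR hKR hμ (m := fun k => (γ.restrict (P k)).map f) ?_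
      (fun k => by rw [e]; exact P0 k) (fun k => by rw [e]; exact measure_ne_top _ _) iy
      (by simp only [e]; rw [← hV]; exact hψ) (fun k => ?_) hT
    · rw [← Measure.sum_fintype, ← Measure.map_sum (by
        rw [Measure.sum_fintype, hsum]; exact mf.aemeasurable), Measure.sum_fintype, hsum, h1]
    · exact (ae_map_iff mf.aemeasurable (measurableSet_le (by fun_prop) measurable_const)).mpr (hn k)
  refine ⟨pot y ψ, pot (fun k => y k + v k) χ, pot_cont _ _, pot_cont _ _, pot_lip (fun k => ?_) ψ,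
    H _ μ _ _ T measurable_fst hμ h1 iy hψ (fun k => (near k).mono fun p hp => ?_) hT,
    H _ ν _ _ S measurable_snd hν h2 iz hχ (fun k => (near k).mono fun p hp => ?_) hS, ?_⟩
  · obtain ⟨p, hp⟩ := SimpleFunc.mem_range.mp (Finset.mem_filter.mp k.2).1
    have := hL _ (φ1 p).1
    rw [hp] at this
    rw [hy]
    exact (norm_add_le _ _).trans (add_le_add this (s1 k))
  · have : p.1 - y k = (p.1 - k.1.1) - s k := by rw [hy]; simp only; abel
    rw [this]
    exact (norm_sub_le _ _).trans (by linarith [hp.1, s1 k])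
  · have : p.2 - (y k + v k) = (p.2 - k.1.2) - s k := by rw [hy, hv]; simp only; abel
    rw [this]
    exact (norm_sub_le _ _).trans (by linarith [hp.2, s1 k])
  obtain ⟨c, hc'⟩ := var_le hK hc hR hKR V0 Vs inj hψ hχ
  refine ⟨c, hc'.trans (mul_le_mul_of_nonneg_left ?_ (by positivity))⟩
  have ci := coup_int hY aγ
  have ci2 : Integrable (fun p : EE d × EE d => 2 * ‖p.1 - p.2‖ ^ 2 + 8 * ε ^ 2) γ :=
    (ci.const_mul 2).add (integrable_const _)
  have e : 2 * (∫ p, ‖p.1 - p.2‖ ^ 2 ∂γ) + 8 * ε ^ 2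
      = ∫ p, (2 * ‖p.1 - p.2‖ ^ 2 + 8 * ε ^ 2) ∂γ := by
    rw [integral_add (ci.const_mul 2) (integrable_const _), integral_const_mul]; simp
  rw [e, ← sumint _ ci2, Finset.mul_sum]
  refine Finset.sum_le_sum fun k _ => ?_
  rw [hV]
  simp only
  rw [mul_assoc]
  refine mul_le_mul_of_nonneg_left ?_ vK.le
  have : (γ (P k)).toReal * ‖v k‖ ^ 2 = ∫ _p in P k, ‖v k‖ ^ 2 ∂γ := by simp [measureReal_def]
  rw [this]
  refine integral_mono_ae (integrable_const _) ci2.restrict ((near k).mono fun p hp => ?_)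
  have a : v k = (p.1 - k.1.1) - (p.2 - k.1.2) - (p.1 - p.2) := by rw [hv]; simp only; abel
  have b : ‖v k‖ ≤ 2 * ε + ‖p.1 - p.2‖ := by
    rw [a]
    refine (norm_sub_le _ _).trans (add_le_add ((norm_sub_le _ _).trans ?_) le_rfl)
    linarith [hp.1, hp.2]
  have := pow_le_pow_left₀ (norm_nonneg _) b 2
  simp only
  nlinarith [sq_nonneg (2 * ε - ‖p.1 - p.2‖)]

end Vale.Agent.P074
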