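import Vale.Agent.P074.Semi

namespace Vale.Agent.P074

open MeasureTheory Set Filter Topology
open scoped ENNReal RealInnerProductSpace

variable {d : ℕ} {ι : Type} [Fintype ι] [Nonempty ι]

lemma exp_lip {a b : ℝ} (ha : a ≤ 1 / 2) (hb : b ≤ 1 / 2) : |Real.exp a - Real.exp b| ≤ 2 * |a - b| := by
  have e2 : ∀ c : ℝ, c ≤ 1 / 2 → Real.exp c ≤ 2 := fun c hc => by
    have h1 := Real.add_one_le_exp (-c)
    have h2 := Real.exp_pos c
    have h3 : Real.exp (-c) * Real.exp c = 1 := by rw [← Real.exp_add]; simp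
    nlinarith
  have key : ∀ a b : ℝ, a ≤ 1 / 2 → Real.exp a - Real.exp b ≤ 2 * |a - b| := fun a b ha => by
    have h1 := Real.add_one_le_exp (b - a)
    have h3 : Real.exp (b - a) * Real.exp a = Real.exp b := by rw [← Real.exp_add]; simp
    have h2 := Real.exp_pos a
    have h4 := e2 a ha
    have h5 := le_abs_self (a - b)
    have h6 := abs_nonneg (a - b)
    nlinarith
  rw [abs_le]
  have := key a b ha
  have := key b a hb
  rw [abs_sub_comm] at this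
  constructor <;> linarith

noncomputable def iw (κ : ℝ) (x : EE d) : ℝ := Real.exp (κ * ‖x‖ ^ 2 / 2)

lemma iw_cont (κ : ℝ) : Continuous (iw κ : EE d → ℝ) := by unfold iw; fun_prop

lemma wt_iw (κ : ℝ) (x : EE d) : wt κ x * iw κ x = 1 := by
  unfold wt iw; rw [← Real.exp_add]; simp

section
variable {R κ : ℝ} (hR : 0 < R) (hκ : κ = 1 / (1000 * R ^ 2))
include hR hκ

lemma kap_pos : 0 < κ := by rw [hκ]; positivity

lemma kap_R : κ * R ^ 2 = 1 / 1000 := by rw [hκ]; field_simp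

lemma ex_le {x : EE d} (hx : ‖x‖ ≤ R) : κ * ‖x‖ ^ 2 / 2 ≤ 1 / 2 := by
  have h1 := kap_pos hR hκ
  have h2 := kap_R hR hκ
  have : κ * ‖x‖ ^ 2 ≤ κ * R ^ 2 := by gcongr
  linarith

lemma iw_le {x : EE d} (hx : ‖x‖ ≤ R) : iw κ x ≤ 2 := by
  have := exp_lip (ex_le hR hκ hx) (b := 0) (by norm_num)
  have h1 := kap_pos hR hκ
  have h2 := ex_le hR hκ hx
  rw [Real.exp_zero, sub_zero, abs_of_nonneg (a := κ * ‖x‖ ^ 2 / 2) (by positivity)] at this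
  have := le_abs_self (Real.exp (κ * ‖x‖ ^ 2 / 2) - 1)
  unfold iw; linarith

lemma wt_ge {x : EE d} (hx : ‖x‖ ≤ R) : 1 / 2 ≤ wt κ x := by
  have h1 := iw_le hR hκ hx
  have h2 := wt_iw κ x
  have h3 := wt_pos κ x
  nlinarith

lemma wt_le (x : EE d) : wt κ x ≤ 1 := by
  have h1 := kap_pos hR hκ
  exact Real.exp_le_one_iff.mpr (neg_nonpos.mpr (by positivity))

lemma iw_lip {x y : EE d} (hx : ‖x‖ ≤ R) (hy : ‖y‖ ≤ R) :
    |iw κ x - iw κ y| ≤ 2 * κ * R * ‖x - y‖ := by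
  have h1 := kap_pos hR hκ
  refine (exp_lip (ex_le hR hκ hx) (ex_le hR hκ hy)).trans ?_
  have e : κ * ‖x‖ ^ 2 / 2 - κ * ‖y‖ ^ 2 / 2 = κ / 2 * (‖x‖ + ‖y‖) * (‖x‖ - ‖y‖) := by ring
  rw [e, abs_mul, abs_of_nonneg (by positivity)]
  have a := abs_norm_sub_norm_le x y
  calc 2 * (κ / 2 * (‖x‖ + ‖y‖) * |‖x‖ - ‖y‖|) ≤ 2 * (κ / 2 * (R + R) * ‖x - y‖) := by gcongr
    _ = _ := by ring

lemma iw_lip2 (v : EE d) {x y : EE d} (hx : ‖x‖ ≤ R) (hy : ‖y‖ ≤ R) :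
    |⟪v, x⟫ * iw κ x - ⟪v, y⟫ * iw κ y| ≤ 3 * ‖v‖ * ‖x - y‖ := by
  have h1 := kap_pos hR hκ
  have h2 := kap_R hR hκ
  have e : ⟪v, x⟫ * iw κ x - ⟪v, y⟫ * iw κ y
      = ⟪v, x - y⟫ * iw κ x + ⟪v, y⟫ * (iw κ x - iw κ y) := by rw [inner_sub_right]; ring
  rw [e]
  refine (abs_add_le _ _).trans ?_
  rw [abs_mul, abs_mul, abs_of_pos (a := iw κ x) (Real.exp_pos _)]
  have a1 := abs_real_inner_le_norm v (x - y)
  have a2 := abs_real_inner_le_norm v y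
  have a3 := iw_le hR hκ hx
  have a4 := iw_lip hR hκ hx hy
  have a5 : 0 < iw κ x := Real.exp_pos _
  calc _ ≤ ‖v‖ * ‖x - y‖ * 2 + ‖v‖ * R * (2 * κ * R * ‖x - y‖) := by
        gcongr
        exact a2.trans (by gcongr)
    _ = ‖v‖ * ‖x - y‖ * (2 + 2 * (κ * R ^ 2)) := by ring
    _ ≤ ‖v‖ * ‖x - y‖ * 3 := by gcongr; linarith
    _ = _ := by ring

end

lemma cs_int {K C : Set (EE d)} (hK : IsCompact K) (hC : C ⊆ K) {g : EE d → ℝ}
    (hg : Continuous g) (hV : 0 < ∫ _x in C, (1 : ℝ)) :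
    (∫ x in C, g x) ^ 2 ≤ (∫ _x in C, (1 : ℝ)) * ∫ x in C, g x ^ 2 := by
  obtain ⟨V, hV'⟩ : ∃ V, V = ∫ _x in C, (1 : ℝ) := ⟨_, rfl⟩
  obtain ⟨e, he⟩ : ∃ e, e = ∫ x in C, g x := ⟨_, rfl⟩
  have a : 0 ≤ ∫ x in C, (V ^ 2 * g x ^ 2 - 2 * V * e * g x + e ^ 2 * 1) :=
    integral_nonneg fun x => by have := sq_nonneg (V * g x - e); simp only [Pi.zero_apply]; linarith
  rw [integral_add (intOn hK hC (by fun_prop)) (intOn hK hC (by fun_prop)),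
    integral_sub (intOn hK hC (by fun_prop)) (intOn hK hC (by fun_prop)), integral_const_mul,
    integral_const_mul, integral_const_mul, ← hV', ← he] at a
  rw [← hV'] at hV
  rw [← hV', ← he]
  have : V * e ^ 2 ≤ V * (V * ∫ x in C, g x ^ 2) := by linarith
  exact le_of_mul_le_mul_left this hV

lemma cell_step {K C0 C1 Ch : Set (EE d)} (hK : IsCompact K) (s0 : C0 ⊆ K) (s1 : C1 ⊆ K)
    (sh : Ch ⊆ K) (m0 : MeasurableSet C0) (m1 : MeasurableSet C1) (mh : MeasurableSet Ch)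
    (hmid : ∀ x ∈ C0, ∀ y ∈ C1, (1 / 2 : ℝ) • (x + y) ∈ Ch) {R κ : ℝ} (hR : 0 < R)
    (hκ : κ = 1 / (1000 * R ^ 2)) (hKR : ∀ x ∈ K, ‖x‖ ≤ R) {g : EE d → ℝ} (hg : Continuous g)
    (hg2 : ∀ x ∈ K, |g x| ≤ 1 / 2) {V : ℝ} (hV : 0 < V) (e0 : ∫ _x in C0, (1 : ℝ) = V)
    (e1 : ∫ x in C1, (1 + g x) = V) (v : EE d) {t : ℝ} (ht : 0 < t) :
    t * ((∫ x in C1, ⟪v, x⟫ * (1 + g x)) - ∫ x in C0, ⟪v, x⟫ * 1)
      ≤ 18002 * t ^ 2 * R ^ 2 * (V * ‖v‖ ^ 2)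
        + 26 * ((∫ x in Ch, wt κ x) - ((∫ x in C0, wt κ x) + ∫ x in C1, wt κ x) / 2)
        + 57 * ∫ x in C1, g x ^ 2 := by
  have hw := wt_cont (d := d) κ
  have hi := iw_cont (d := d) κ
  have k1 := kap_pos hR hκ
  have k2 := kap_R hR hκ
  have mono : ∀ {C : Set (EE d)}, C ⊆ K → MeasurableSet C → ∀ {f h : EE d → ℝ}, Continuous f →
      Continuous h → (∀ x ∈ K, f x ≤ h x) → ∫ x in C, f x ≤ ∫ x in C, h x :=
    fun hC mC f h hf hh H => setIntegral_mono_on (intOn hK hC hf) (intOn hK hC hh) mC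
      fun x hx => H x (hC hx)
  obtain ⟨V1, hV1⟩ : ∃ V1, V1 = ∫ _x in C1, (1 : ℝ) := ⟨_, rfl⟩
  have b1 : V ≤ 3 / 2 * V1 := by
    rw [← e1, hV1, ← integral_const_mul]
    exact mono s1 m1 (by fun_prop) (by fun_prop) fun x hx => by
      have := abs_le.mp (hg2 x hx); linarith
  have b2 : 1 / 2 * V1 ≤ V := by
    rw [← e1, hV1, ← integral_const_mul]
    exact mono s1 m1 (by fun_prop) (by fun_prop) fun x hx => by
      have := abs_le.mp (hg2 x hx); linarith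
  have wl : ∀ {C : Set (EE d)}, C ⊆ K → MeasurableSet C →
      1 / 2 * ∫ _x in C, (1 : ℝ) ≤ ∫ x in C, wt κ x := fun hC mC => by
    rw [← integral_const_mul]
    exact mono hC mC (by fun_prop) hw fun x hx => by
      have := wt_ge hR hκ (hKR x hx); linarith
  have wu : ∀ {C : Set (EE d)}, C ⊆ K → MeasurableSet C →
      ∫ x in C, wt κ x ≤ ∫ _x in C, (1 : ℝ) := fun hC mC =>
    mono hC mC hw (by fun_prop) fun x _ => wt_le hR hκ x
  have a0l := wl s0 m0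
  have a0u := wu s0 m0
  have a1l := wl s1 m1
  have a1u := wu s1 m1
  rw [e0] at a0l a0u
  rw [← hV1] at a1l a1u
  have he : V1 = V - ∫ x in C1, g x := by
    rw [← e1, integral_add (intOn hK s1 (by fun_prop)) (intOn hK s1 hg), ← hV1]; ring
  have hI0 : 0 ≤ ∫ x in C1, g x ^ 2 := integral_nonneg fun x => sq_nonneg _
  have heI : (∫ x in C1, g x) ^ 2 ≤ 2 * V * ∫ x in C1, g x ^ 2 := by
    refine (cs_int hK s1 hg (by rw [← hV1]; linarith)).trans ?_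
    rw [← hV1]; gcongr; linarith
  have c1 : ∀ C : Set (EE d), ∫ x in C, wt κ x * iw κ x = ∫ _x in C, (1 : ℝ) := fun C => by
    simp_rw [wt_iw]
  have c2 : ∀ C : Set (EE d), ∫ x in C, wt κ x * (⟪v, x⟫ * iw κ x) = ∫ x in C, ⟪v, x⟫ :=
    fun C => by
      congr 1; ext x; rw [mul_left_comm, wt_iw, mul_one]
  obtain ⟨A0, hA0⟩ : ∃ A0, A0 = ∫ x in C0, wt κ x := ⟨_, rfl⟩
  obtain ⟨A1, hA1⟩ : ∃ A1, A1 = ∫ x in C1, wt κ x := ⟨_, rfl⟩
  have PL := fun (ξ : EE d → ℝ) (hξ : Continuous ξ) (L : ℝ) hL a0 a1 t =>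
    cellPL hK s0 s1 sh m0 m1 mh hmid k1 hξ (L := L) hL a0 a1 t
  rw [← hA0, ← hA1] at PL
  rw [← hA0] at a0l a0u
  rw [← hA1] at a1l a1u
  have p0 : 0 < A0 := by linarith
  have p1 : 0 < A1 := by linarith
  have Ha := PL (iw κ) hi (2 * κ * R) (fun x hx y hy => iw_lip hR hκ (hKR x hx) (hKR y hy))
    (V / A0) (V1 / A1) (κ * (V1 / A1 - V / A0) / (2 * (2 * κ * R) ^ 2))
    (by rw [c1, e0]; field_simp) (by rw [c1, ← hV1]; field_simp)
  have Hb := PL (fun x => ⟪v, x⟫ * iw κ x) (by fun_prop) (3 * ‖v‖)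
    (fun x hx y hy => iw_lip2 hR hκ v (hKR x hx) (hKR y hy))
    ((∫ x in C0, ⟪v, x⟫) / A0) ((∫ x in C1, ⟪v, x⟫) / A1) t
    (by rw [c2]; field_simp) (by rw [c2]; field_simp)
  have ea : ∀ δ : ℝ, (κ * δ / (2 * (2 * κ * R) ^ 2) * δ
      - (κ * δ / (2 * (2 * κ * R) ^ 2)) ^ 2 * (2 * κ * R) ^ 2 / κ) / 2 = δ ^ 2 * (1000 / 32) := by
    intro δ; rw [hκ]; field_simp; ring
  rw [ea] at Ha
  have vb : ∀ x ∈ K, |⟪v, x⟫| ≤ ‖v‖ * R := fun x hx =>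
    (abs_real_inner_le_norm v x).trans (by gcongr; exact hKR x hx)
  have hP0 : |∫ x in C0, ⟪v, x⟫| ≤ ‖v‖ * R * V := by
    rw [abs_le, ← e0, ← integral_const_mul, ← integral_neg]
    constructor
    · exact mono s0 m0 (by fun_prop) (by fun_prop) fun x hx => by
        have := abs_le.mp (vb x hx); linarith
    · exact mono s0 m0 (by fun_prop) (by fun_prop) fun x hx => by
        have := abs_le.mp (vb x hx); linarith
  have hJ : t * ∫ x in C1, ⟪v, x⟫ * g x ≤ t ^ 2 * (‖v‖ * R) ^ 2 * V + ∫ x in C1, g x ^ 2 := by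
    have : ∫ x in C1, t * (⟪v, x⟫ * g x)
        ≤ ∫ x in C1, (t ^ 2 * (‖v‖ * R) ^ 2 / 2 * 1 + g x ^ 2) :=
      mono s1 m1 (by fun_prop) (by fun_prop) fun x hx => by
        have a : ⟪v, x⟫ ^ 2 ≤ (‖v‖ * R) ^ 2 := by
          rw [← sq_abs]; gcongr; exact vb x hx
        have b := mul_le_mul_of_nonneg_left a (sq_nonneg t)
        nlinarith [sq_nonneg (t * ⟪v, x⟫ - g x)]
    rw [integral_const_mul, integral_add (intOn hK s1 (by fun_prop)) (intOn hK s1 (by fun_prop)),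
      integral_const_mul, ← hV1] at this
    have c : 0 ≤ t ^ 2 * (‖v‖ * R) ^ 2 := by positivity
    nlinarith
  have key := cell_arith (β := ‖v‖ * R) (q := t ^ 2 * (3 * ‖v‖) ^ 2 / κ) hV (by linarith) a0u
    (by linarith) (by linarith) (Real.sqrt_nonneg (A0 * A1)) (Real.sq_sqrt (by positivity)) he heI
    (a0 := V / A0) (a1 := V1 / A1) (by field_simp) (by field_simp)
    (P0 := ∫ x in C0, ⟪v, x⟫) (P1 := ∫ x in C1, ⟪v, x⟫) (by field_simp) (by field_simp) ht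
    (by positivity) hP0 (by positivity) Ha Hb hJ
  have f1 : ∫ x in C1, ⟪v, x⟫ * (1 + g x) = (∫ x in C1, ⟪v, x⟫) + ∫ x in C1, ⟪v, x⟫ * g x := by
    rw [← integral_add (intOn hK s1 (by fun_prop)) (intOn hK s1 (by fun_prop))]
    congr 1; ext x; ring
  have f2 : (2 * (t ^ 2 * (3 * ‖v‖) ^ 2 / κ) + 2 * t ^ 2 * (‖v‖ * R) ^ 2) * V
      = 18002 * t ^ 2 * R ^ 2 * (V * ‖v‖ ^ 2) := by rw [hκ]; field_simp; ring
  rw [f2] at key
  simp_rw [mul_one]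
  rw [f1, ← hA0, ← hA1]
  linarith

lemma bary {K : Set (EE d)} (hK : IsCompact K) (hc : Convex ℝ K) {R : ℝ} (hR : 0 < R)
    (hKR : ∀ x ∈ K, ‖x‖ ≤ R) {g : EE d → ℝ} (hg : Continuous g)
    (hg2 : ∀ x ∈ K, |g x| ≤ 1 / 2) {V : ι → ℝ} (hV : ∀ k, 0 < V k) {y : ι → EE d}
    (hy : Function.Injective y) {ψ0 ψ1 : ι → ℝ} (h0 : Opt K V (fun _ => 1) y ψ0)
    (h1 : Opt K V (fun x => 1 + g x) y ψ1) (v : ι → EE d) {t : ℝ} (ht : 0 < t) :
    t * (Bar K (fun x => 1 + g x) y ψ1 v - Bar K (fun _ => 1) y ψ0 v)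
      ≤ 18002 * t ^ 2 * R ^ 2 * (∑ k, V k * ‖v k‖ ^ 2) + 57 * ∫ x in K, g x ^ 2 := by
  obtain ⟨κ, hκ⟩ : ∃ κ, κ = 1 / (1000 * R ^ 2) := ⟨_, rfl⟩
  have := Finset.sum_le_sum (s := Finset.univ) fun k _ =>
    cell_step hK (cell_sub K y ψ0 k) (cell_sub K y ψ1 k)
      (cell_sub K y (fun l => (ψ0 l + ψ1 l) / 2) k) (cell_meas hK _ _ _) (cell_meas hK _ _ _)
      (cell_meas hK _ _ _) (cell_mid hc y ψ0 ψ1 k) hR hκ hKR hg hg2 (hV k) (h0 k) (h1 k) (v k) ht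
  have hw := intOn hK subset_rfl (wt_cont (d := d) κ)
  simp only [Finset.sum_add_distrib, ← Finset.mul_sum, Finset.sum_sub_distrib, ← Finset.sum_div,
    sum_cell hK hy _ hw, sum_cell hK hy _ (f := fun x => g x ^ 2) (intOn hK subset_rfl (hg.pow 2))] at this
  unfold Bar
  linarith

end Vale.Agent.P074
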