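import Vale.Agent.P074.PL

namespace Vale.Agent.P074

open MeasureTheory Set
open scoped ENNReal RealInnerProductSpace

abbrev EE (d : ℕ) := EuclideanSpace ℝ (Fin d)

variable {d : ℕ}

lemma intOn {K C : Set (EE d)} (hK : IsCompact K) (hC : C ⊆ K) {f : EE d → ℝ} (hf : Continuous f) :
    IntegrableOn f C := (hf.continuousOn.integrableOn_compact hK).mono_set hC

lemma pl_sets {K C0 C1 Ch : Set (EE d)} (hK : IsCompact K) (s0 : C0 ⊆ K) (s1 : C1 ⊆ K)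
    (sh : Ch ⊆ K) (m0 : MeasurableSet C0) (m1 : MeasurableSet C1) (mh : MeasurableSet Ch)
    {f g h : EE d → ℝ} (hf : Continuous f) (hg : Continuous g) (hh : Continuous h)
    (f0 : ∀ x, 0 ≤ f x) (g0 : ∀ x, 0 ≤ g x) (h0 : ∀ x, 0 ≤ h x)
    (H : ∀ x ∈ C0, ∀ y ∈ C1, (1 / 2 : ℝ) • (x + y) ∈ Ch ∧
      f x * g y ≤ h ((1 / 2 : ℝ) • (x + y)) ^ 2) :
    (∫ x in C0, f x) * (∫ x in C1, g x) ≤ (∫ x in Ch, h x) ^ 2 := by
  have key := pl_euc d (C0.indicator fun x => ENNReal.ofReal (f x))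
    (C1.indicator fun x => ENNReal.ofReal (g x)) (Ch.indicator fun x => ENNReal.ofReal (h x))
    (hf.measurable.ennreal_ofReal.indicator m0) (hg.measurable.ennreal_ofReal.indicator m1)
    (hh.measurable.ennreal_ofReal.indicator mh) (fun x y => by
      by_cases hx : x ∈ C0
      · by_cases hy : y ∈ C1
        · obtain ⟨a, b⟩ := H x hx y hy
          rw [indicator_of_mem hx, indicator_of_mem hy, indicator_of_mem a,
            ← ENNReal.ofReal_mul (f0 x), ← ENNReal.ofReal_pow (h0 _)]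
          exact ENNReal.ofReal_le_ofReal b
        · simp [indicator_of_notMem hy]
      · simp [indicator_of_notMem hx])
  rw [lintegral_indicator m0, lintegral_indicator m1, lintegral_indicator mh,
    ← ofReal_integral_eq_lintegral_ofReal (intOn hK s0 hf) (ae_of_all _ f0),
    ← ofReal_integral_eq_lintegral_ofReal (intOn hK s1 hg) (ae_of_all _ g0),
    ← ofReal_integral_eq_lintegral_ofReal (intOn hK sh hh) (ae_of_all _ h0),
    ← ENNReal.ofReal_mul (integral_nonneg f0), ← ENNReal.ofReal_pow (integral_nonneg h0),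
    ENNReal.ofReal_le_ofReal_iff (sq_nonneg _)] at key
  exact key

noncomputable def wt (κ : ℝ) (x : EE d) : ℝ := Real.exp (-(κ * ‖x‖ ^ 2 / 2))

lemma wt_cont (κ : ℝ) : Continuous (wt κ : EE d → ℝ) := by unfold wt; fun_prop

lemma wt_pos (κ : ℝ) (x : EE d) : 0 < wt κ x := Real.exp_pos _

lemma wt_mid (κ : ℝ) (x y : EE d) :
    wt κ ((1 / 2 : ℝ) • (x + y)) ^ 2 = wt κ x * wt κ y * Real.exp (κ * ‖x - y‖ ^ 2 / 4) := by
  unfold wt
  rw [← Real.exp_nat_mul, ← Real.exp_add, ← Real.exp_add, norm_smul]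
  congr 1
  have := parallelogram_law_with_norm ℝ x y
  rw [mul_pow, Real.norm_eq_abs, sq_abs]
  have e : ‖x + y‖ ^ 2 = 2 * (‖x‖ ^ 2 + ‖y‖ ^ 2) - ‖x - y‖ ^ 2 := by nlinarith
  rw [e]; push_cast; ring

lemma cellPL {K C0 C1 Ch : Set (EE d)} (hK : IsCompact K) (s0 : C0 ⊆ K) (s1 : C1 ⊆ K)
    (sh : Ch ⊆ K) (m0 : MeasurableSet C0) (m1 : MeasurableSet C1) (mh : MeasurableSet Ch)
    (hmid : ∀ x ∈ C0, ∀ y ∈ C1, (1 / 2 : ℝ) • (x + y) ∈ Ch) {κ : ℝ} (hκ : 0 < κ)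
    {ξ : EE d → ℝ} (hξ : Continuous ξ) {L : ℝ}
    (hL : ∀ x ∈ K, ∀ y ∈ K, |ξ x - ξ y| ≤ L * ‖x - y‖) (a0 a1 t : ℝ)
    (e0 : a0 * ∫ x in C0, wt κ x = ∫ x in C0, wt κ x * ξ x)
    (e1 : a1 * ∫ x in C1, wt κ x = ∫ x in C1, wt κ x * ξ x) :
    Real.sqrt ((∫ x in C0, wt κ x) * ∫ x in C1, wt κ x) * (1 + (t * (a1 - a0) - t ^ 2 * L ^ 2 / κ) / 2)
      ≤ ∫ x in Ch, wt κ x := by
  have hw := wt_cont (d := d) κ
  set η := t * (a1 - a0) - t ^ 2 * L ^ 2 / κ with hη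
  have key := pl_sets hK s0 s1 sh m0 m1 mh
    (f := fun x => wt κ x * Real.exp (-t * (ξ x - a0)))
    (g := fun x => Real.exp η * (wt κ x * Real.exp (t * (ξ x - a1)))) (h := wt κ)
    (by fun_prop) (by fun_prop) hw (fun x => by have := wt_pos κ x; positivity)
    (fun x => by have := wt_pos κ x; positivity) (fun x => (wt_pos κ x).le) (fun x hx y hy => by
      refine ⟨hmid x hx y hy, ?_⟩
      rw [wt_mid]
      have a1' := abs_le.mp (hL x (s0 hx) y (s1 hy))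
      have e : wt κ x * Real.exp (-t * (ξ x - a0)) *
          (Real.exp η * (wt κ y * Real.exp (t * (ξ y - a1))))
          = wt κ x * wt κ y * Real.exp (t * (ξ y - ξ x) - t ^ 2 * L ^ 2 / κ) := by
        have : t * (ξ y - ξ x) - t ^ 2 * L ^ 2 / κ = -t * (ξ x - a0) + η + t * (ξ y - a1) := by
          rw [hη]; ring
        rw [this, Real.exp_add, Real.exp_add]; ring
      rw [e]
      refine mul_le_mul_of_nonneg_left (Real.exp_le_exp.mpr ?_)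
        (mul_pos (wt_pos κ x) (wt_pos κ y)).le
      have b1 : t * (ξ y - ξ x) ≤ |t| * (L * ‖x - y‖) := by
        refine (le_abs_self _).trans ?_
        rw [abs_mul, abs_sub_comm]
        exact mul_le_mul_of_nonneg_left (hL x (s0 hx) y (s1 hy)) (abs_nonneg _)
      have b2 : |t| * (L * ‖x - y‖) ≤ t ^ 2 * L ^ 2 / κ + κ * ‖x - y‖ ^ 2 / 4 := by
        rw [← sq_abs t, ← sub_le_iff_le_add, le_div_iff₀ hκ]
        nlinarith [sq_nonneg (|t| * L - κ * ‖x - y‖ / 2)]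
      linarith)
  have jen : ∀ (C : Set (EE d)) (a s : ℝ), C ⊆ K → MeasurableSet C →
      a * ∫ x in C, wt κ x = ∫ x in C, wt κ x * ξ x →
      ∫ x in C, wt κ x ≤ ∫ x in C, wt κ x * Real.exp (s * (ξ x - a)) := by
    intro C a s hC mC e
    have i1 := intOn hK hC hw
    have i2 := intOn hK hC (f := fun x => wt κ x * ξ x) (by fun_prop)
    have : ∫ x in C, wt κ x = ∫ x in C, ((1 - s * a) * wt κ x + s * (wt κ x * ξ x)) := by
      rw [integral_add (i1.const_mul _) (i2.const_mul _), integral_const_mul, integral_const_mul, ← e]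
      ring
    rw [this]
    refine setIntegral_mono_on ((i1.const_mul _).add (i2.const_mul _))
      (intOn hK hC (by fun_prop)) mC fun x _ => ?_
    have := mul_le_mul_of_nonneg_left (Real.add_one_le_exp (s * (ξ x - a))) (wt_pos κ x).le
    linarith
  have j0 := jen C0 a0 (-t) s0 m0 e0
  have j1 := jen C1 a1 t s1 m1 e1
  rw [integral_const_mul] at key
  have n0 : 0 ≤ ∫ x in C0, wt κ x := integral_nonneg fun x => (wt_pos κ x).le
  have n1 : 0 ≤ ∫ x in C1, wt κ x := integral_nonneg fun x => (wt_pos κ x).le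
  have nh : 0 ≤ ∫ x in Ch, wt κ x := integral_nonneg fun x => (wt_pos κ x).le
  set A0 := ∫ x in C0, wt κ x
  set A1 := ∫ x in C1, wt κ x
  have k2 : (Real.sqrt (A0 * A1) * Real.exp (η / 2)) ^ 2 ≤ (∫ x in Ch, wt κ x) ^ 2 := by
    refine le_trans ?_ key
    rw [mul_pow, Real.sq_sqrt (by positivity), ← Real.exp_nat_mul]
    have : ((2 : ℕ) : ℝ) * (η / 2) = η := by push_cast; ring
    rw [this]
    calc A0 * A1 * Real.exp η = A0 * (Real.exp η * A1) := by ring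
      _ ≤ _ := by gcongr; exact n0.trans j0
  have k3 := le_of_sq_le_sq k2 nh
  refine le_trans (mul_le_mul_of_nonneg_left ?_ (Real.sqrt_nonneg _)) k3
  linarith [Real.add_one_le_exp (η / 2)]

lemma ar1 {V0 A0 A1 G u : ℝ} (hV0 : 0 < V0) (hA0 : 0 < A0) (hA0' : A0 ≤ V0) (hA1 : 0 ≤ A1)
    (hG0 : 0 ≤ G) (hG : G ^ 2 = A0 * A1) (h3 : V0 * (A0 - A1) = u * A0) :
    ((A0 + A1) / 2 - G) * (2 * V0) ≤ u ^ 2 := by
  have b : 0 ≤ (A0 + A1) / 2 - G := by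
    have : G ^ 2 ≤ ((A0 + A1) / 2) ^ 2 := by rw [hG]; nlinarith [sq_nonneg (A0 - A1)]
    have := le_of_sq_le_sq this (by linarith)
    linarith
  have c : (A0 - A1) ^ 2 = 4 * (((A0 + A1) / 2 - G) * ((A0 + A1) / 2 + G)) := by
    have : ((A0 + A1) / 2 - G) * ((A0 + A1) / 2 + G) = ((A0 + A1) / 2) ^ 2 - G ^ 2 := by ring
    rw [this, hG]; ring
  generalize (A0 + A1) / 2 - G = D at b c
  have a : 2 * A0 * D ≤ (A0 - A1) ^ 2 := by
    rw [c]; nlinarith [mul_nonneg b hA1, mul_nonneg b hG0]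
  have a2 : V0 ^ 2 * (A0 - A1) ^ 2 = u ^ 2 * A0 ^ 2 := by
    rw [← mul_pow, h3]; ring
  have a3 : V0 ^ 2 * (2 * A0 * D) ≤ u ^ 2 * (A0 * V0) := by
    calc _ ≤ V0 ^ 2 * (A0 - A1) ^ 2 := by gcongr
      _ = u ^ 2 * (A0 * A0) := by rw [a2]; ring
      _ ≤ _ := by gcongr
  have a4 : (A0 * V0) * (D * (2 * V0)) ≤ (A0 * V0) * u ^ 2 := by linarith
  exact le_of_mul_le_mul_left a4 (by positivity)

lemma ar2 {V0 A1 G H δ t q : ℝ} (hV0 : 0 < V0) (hA1 : 0 ≤ A1) (hA1' : A1 ≤ 2 * V0)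
    (hG3 : V0 / 3 ≤ G) (hH : 0 ≤ H) (hq : 0 ≤ q) (a : G * (t * δ) ≤ 2 * H + G * q) :
    t * (δ * A1) ≤ 12 * H + 2 * V0 * q := by
  have hGp : 0 < G := by linarith
  have b := mul_le_mul_of_nonneg_right a hA1
  have c : H * A1 ≤ H * (6 * G) := mul_le_mul_of_nonneg_left (by linarith) hH
  have c' : G * q * A1 ≤ G * q * (2 * V0) := by gcongr
  have a2 : t * (δ * A1) * G ≤ (12 * H + 2 * V0 * q) * G := by linarith
  exact le_of_mul_le_mul_right a2 hGp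

lemma ar3 {V0 P0 u β t z M : ℝ} (hV0 : 0 < V0) (ht : 0 < t) (hβ : 0 ≤ β) (hP0 : |P0| ≤ β * V0)
    (a : z * V0 = -(P0 * u)) (a5 : u ^ 2 ≤ V0 * M) : t * z ≤ t ^ 2 * β ^ 2 * V0 + M := by
  have a2 : -(P0 * u) ≤ β * V0 * |u| := by
    refine (neg_le_abs _).trans ?_
    rw [abs_mul]; gcongr
  have a4 : t * β * V0 * |u| ≤ (t * β * V0) ^ 2 + u ^ 2 := by
    rw [← sq_abs u]
    have : 0 ≤ t * β * V0 * |u| := by positivity
    nlinarith [sq_nonneg (t * β * V0 - |u|)]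
  have a6 := mul_le_mul_of_nonneg_left a2 ht.le
  have : t * z * V0 ≤ (t ^ 2 * β ^ 2 * V0 + M) * V0 := by
    have e : t * z * V0 = t * -(P0 * u) := by rw [← a]; ring
    nlinarith
  exact le_of_mul_le_mul_right this hV0

/-- Pure arithmetic for one cell. -/
lemma cell_arith {V0 V1 A0 A1 Ah G P0 P1 e J I β t q a0 a1 b0 b1 : ℝ}
    (hV0 : 0 < V0) (hA0 : V0 / 2 ≤ A0) (hA0' : A0 ≤ V0) (hA1 : V0 / 3 ≤ A1) (hA1' : A1 ≤ 2 * V0)
    (hG0 : 0 ≤ G) (hG : G ^ 2 = A0 * A1) (he : V1 = V0 - e) (heI : e ^ 2 ≤ 2 * V0 * I)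
    (ha0 : a0 * A0 = V0) (ha1 : a1 * A1 = V1) (hb0 : b0 * A0 = P0) (hb1 : b1 * A1 = P1)
    (ht : 0 < t) (hβ : 0 ≤ β) (hP0 : |P0| ≤ β * V0) (hq : 0 ≤ q)
    (Ha : G * (1 + (a1 - a0) ^ 2 * (1000 / 32)) ≤ Ah)
    (Hb : G * (1 + (t * (b1 - b0) - q) / 2) ≤ Ah)
    (hJ : t * J ≤ t ^ 2 * β ^ 2 * V0 + I) :
    t * (P1 - P0 + J) ≤ (2 * q + 2 * t ^ 2 * β ^ 2) * V0
      + 26 * (Ah - (A0 + A1) / 2) + 57 * I := by
  have hA0p : 0 < A0 := by linarith
  have hG3 : V0 / 3 ≤ G := by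
    refine le_of_sq_le_sq ?_ hG0
    rw [hG]; nlinarith
  have hI : 0 ≤ I := by nlinarith [sq_nonneg e]
  obtain ⟨δ, hδ⟩ : ∃ δ, δ = a1 - a0 := ⟨_, rfl⟩
  obtain ⟨H, hH⟩ : ∃ H, H = Ah - G := ⟨_, rfl⟩
  rw [← hδ] at Ha
  have h1 : G * δ ^ 2 ≤ 32 / 1000 * H := by rw [hH]; linarith
  have hH0 : 0 ≤ H := by have := mul_nonneg hG0 (sq_nonneg δ); linarith
  have h2 : (δ * A1) ^ 2 ≤ 12 * (32 / 1000 * H) * V0 := by
    have a : A1 ^ 2 ≤ 12 * G * V0 := by nlinarith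
    calc (δ * A1) ^ 2 = δ ^ 2 * A1 ^ 2 := by ring
      _ ≤ δ ^ 2 * (12 * G * V0) := by gcongr
      _ = 12 * (G * δ ^ 2) * V0 := by ring
      _ ≤ _ := by gcongr
  have h3 : V0 * (A0 - A1) = (δ * A1 + e) * A0 := by
    have e1 : δ * A1 + e = V0 - a0 * A1 := by rw [hδ, sub_mul, ha1, he]; ring
    rw [e1, ← ha0]; ring
  obtain ⟨u, hu⟩ : ∃ u, u = δ * A1 + e := ⟨_, rfl⟩
  rw [← hu] at h3
  have h4 : u ^ 2 ≤ V0 * (768 / 1000 * H + 4 * I) := by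
    have : u ^ 2 ≤ 2 * (δ * A1) ^ 2 + 2 * e ^ 2 := by rw [hu]; nlinarith [sq_nonneg (δ * A1 - e)]
    linarith
  have h5 := ar1 hV0 hA0p hA0' (by linarith) hG0 hG h3
  have h6 : H ≤ 2 * (Ah - (A0 + A1) / 2) + 4 * I := by
    have a : ((A0 + A1) / 2 - G) * 2 * V0 ≤ (768 / 1000 * H + 4 * I) * V0 := by linarith
    have := le_of_mul_le_mul_right a hV0
    linarith
  have h7 := ar2 (δ := b1 - b0) (t := t) hV0 (by linarith) hA1' hG3 hH0 hq (by rw [hH]; linarith)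
  have h8 := ar3 (z := b0 * (A1 - A0)) (M := H + 4 * I) hV0 ht hβ hP0
    (by linear_combination (-b0) * h3 - u * hb0)
    (h4.trans (mul_le_mul_of_nonneg_left (by linarith) hV0.le))
  have h9 : t * (P1 - P0 + J) = t * ((b1 - b0) * A1) + t * (b0 * (A1 - A0)) + t * J := by
    rw [← hb0, ← hb1]; ring
  linarith

end Vale.Agent.P074
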