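import Vale.Agent.P074.Upper

namespace Vale.Agent.P074

open MeasureTheory Set Filter Topology
open scoped ENNReal RealInnerProductSpace

variable {d : ℕ}

def box (a b : Fin d → ℝ) : Set (EE d) := WithLp.ofLp ⁻¹' Icc a b

lemma mem_box {a b : Fin d → ℝ} {x : EE d} : x ∈ box a b ↔ ∀ i, a i ≤ x i ∧ x i ≤ b i :=
  ⟨fun h i => ⟨h.1 i, h.2 i⟩, fun h => ⟨fun i => (h i).1, fun i => (h i).2⟩⟩

lemma box_compact (a b : Fin d → ℝ) : IsCompact (box a b) :=
  (PiLp.homeomorph 2 fun _ : Fin d => ℝ).isCompact_preimage.mpr isCompact_Icc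

lemma box_convex (a b : Fin d → ℝ) : Convex ℝ (box a b) :=
  (convex_Icc a b).linear_preimage (WithLp.linearEquiv 2 ℝ (Fin d → ℝ)).toLinearMap

lemma box_vol {a b : Fin d → ℝ} (h : a ≤ b) : volume.real (box a b) = ∏ i, (b i - a i) := by
  rw [measureReal_def, box, (PiLp.volume_preserving_ofLp (Fin d)).measure_preimage
    measurableSet_Icc.nullMeasurableSet, Real.volume_Icc_pi_toReal h]

noncomputable def Tm (i j : Fin d) (m a : ℝ) (x : EE d) : EE d :=
  if |x i| ≤ m + a * x j then EuclideanSpace.single j a
  else if 0 ≤ x i then EuclideanSpace.single i 1 else EuclideanSpace.single i (-1)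

lemma Tm_meas (i j : Fin d) (m a : ℝ) : Measurable (Tm i j m a) := by
  unfold Tm
  exact Measurable.ite (measurableSet_le (by fun_prop) (by fun_prop)) measurable_const
    (Measurable.ite (measurableSet_le (by fun_prop) (by fun_prop)) measurable_const measurable_const)

lemma Tm_mem (i j : Fin d) (m : ℝ) {a : ℝ} (ha : |a| ≤ 1) (x : EE d) :
    Tm i j m a x ∈ Metric.closedBall (0 : EE d) 1 := by
  unfold Tm
  split_ifs <;> simp [ha]

lemma Tm_null (i j : Fin d) (m : ℝ) {a : ℝ} (ha : |a| ≤ 1) (ρ : Measure (EE d)) :
    ρ.map (Tm i j m a) (Metric.closedBall (0 : EE d) 1)ᶜ = 0 := by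
  rw [Measure.map_apply (Tm_meas i j m a) measurableSet_closedBall.compl]
  convert measure_empty (μ := ρ)
  exact eq_empty_of_forall_notMem fun x hx => hx (Tm_mem i j m ha x)

lemma Tm_ot {K : Set (EE d)} (hK : IsCompact K) (h0 : volume K ≠ 0) (i j : Fin d) (m : ℝ) {a : ℝ}
    (ha : |a| ≤ 1) : IsOT (unif K) ((unif K).map (Tm i j m a)) (Tm i j m a) := by
  refine ot_of_gap hK h0 (isCompact_closedBall 0 1) (u := fun x => max |x i| (m + a * x j))
    (by fun_prop) (Tm_meas i j m a) (Tm_null i j m ha _) fun x hx => ?_
  have key : ∀ (k : Fin d) (c e : ℝ), (∀ x : EE d, c * x k - e ≤ max |x i| (m + a * x j)) →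
      max |x i| (m + a * x j) ≤ c * x k - e →
      gam K (fun x => max |x i| (m + a * x j)) x (EuclideanSpace.single k c) ≤ 0 := by
    intro k c e h1 h2
    have := cj_le (K := K) ⟨x, hx⟩ (u := fun x => max |x i| (m + a * x j))
      (q := EuclideanSpace.single k c) (c := e) fun x' _ => by
        have := h1 x'
        simp only [EuclideanSpace.inner_single_right, conj_trivial]
        linarith
    simp only [gam, EuclideanSpace.inner_single_right, conj_trivial]
    linarith
  unfold Tm
  split_ifs with h1 h2
  · exact key j a (-m) (fun x => le_max_of_le_right (by linarith))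
      (max_le (by linarith) (by linarith))
  · refine key i 1 0 (fun x => le_max_of_le_left (by simpa using le_abs_self _)) ?_
    rw [abs_of_nonneg h2] at h1 ⊢
    exact max_le (by linarith) (by linarith)
  · refine key i (-1) 0 (fun x => le_max_of_le_left (by simpa using neg_le_abs _)) ?_
    rw [abs_of_neg (not_le.mp h2)] at h1 ⊢
    exact max_le (by linarith) (by linarith)

noncomputable def flip (j : Fin d) : EE d ≃ₗᵢ[ℝ] EE d :=
  LinearIsometryEquiv.piLpCongrRight 2 fun i =>
    if i = j then LinearIsometryEquiv.neg ℝ else LinearIsometryEquiv.refl ℝ ℝ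

lemma flip_apply (j i : Fin d) (x : EE d) : flip j x i = if i = j then -x i else x i := by
  simp only [flip, LinearIsometryEquiv.piLpCongrRight_apply]
  split_ifs <;> rfl

theorem lower (hd : 2 ≤ d) {α : ℝ} (hα : 1 / 3 < α) : ¬ Admissible d α := by
  intro H
  obtain ⟨i, hi⟩ : ∃ i : Fin d, i = ⟨0, by omega⟩ := ⟨_, rfl⟩
  obtain ⟨j, hj⟩ : ∃ j : Fin d, j = ⟨1, by omega⟩ := ⟨_, rfl⟩
  have hij : i ≠ j := by rw [hi, hj]; simp
  obtain ⟨K, hK'⟩ : ∃ K : Set (EE d), K = box (fun _ => -1) (fun _ => 1) := ⟨_, rfl⟩
  have hK : IsCompact K := by rw [hK']; exact box_compact _ _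
  have mK : ∀ x, x ∈ K ↔ ∀ l, |x l| ≤ 1 := fun x => by simp only [hK', mem_box, abs_le]
  have hi' : (interior K).Nonempty := by
    refine ⟨0, mem_interior_iff_mem_nhds.mpr (mem_of_superset (Metric.closedBall_mem_nhds 0 one_pos)
      fun x hx => (mK x).mpr fun l => (PiLp.norm_apply_le x l).trans (by simpa using hx))⟩
  have h0 : volume K ≠ 0 := (Measure.measure_pos_of_nonempty_interior volume hi').ne'
  have vK : volume.real K = 2 ^ d := by
    rw [hK', box_vol fun _ => by norm_num]; norm_num
  have pK : IsProbabilityMeasure (unif K) :=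
    ⟨by simp [unif, ENNReal.inv_mul_cancel h0 hK.measure_lt_top.ne]⟩
  obtain ⟨C, hC⟩ := H K hK (by rw [hK']; exact box_convex _ _) hi' _ (isCompact_closedBall 0 1)
    ⟨0, by simp⟩
  have main : ∀ m : ℝ, 0 < m → m ≤ 1 / 2 → Real.sqrt (m / 16) ≤ C * Real.sqrt (8 * m ^ 3) ^ α := by
    intro m m0 m1
    have a1 : |m| ≤ 1 := by rw [abs_of_pos m0]; linarith
    have a2 : |-m| ≤ 1 := by rwa [abs_neg]
    have mT := Tm_meas i j m m
    have mS := Tm_meas i j m (-m)
    have key := hC _ _ (Measure.isProbabilityMeasure_map mT.aemeasurable)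
      (Measure.isProbabilityMeasure_map mS.aemeasurable) (Tm_null i j m a1 _) (Tm_null i j m a2 _)
      _ _ (Tm_ot hK h0 i j m a1) (Tm_ot hK h0 i j m a2)
    have fK : IsFiniteMeasure (volume.restrict K) :=
      isFiniteMeasure_restrict.mpr hK.measure_lt_top.ne
    have int : ∀ S : EE d → EE d, Measurable S → (∀ x, S x ∈ Metric.closedBall (0 : EE d) 1) →
        IntegrableOn (fun x => ‖Tm i j m m x - S x‖ ^ 2) K := fun S mS hS =>
      Integrable.of_bound (by fun_prop : Measurable _).aestronglyMeasurable (2 ^ 2)
        (ae_of_all _ fun x => by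
          rw [Real.norm_of_nonneg (sq_nonneg _)]
          have b1 := mem_closedBall_zero_iff.mp (hS x)
          have b2 := mem_closedBall_zero_iff.mp (Tm_mem i j m a1 x)
          gcongr
          exact (norm_sub_le _ _).trans (by linarith))
    have i1 := int _ mS (Tm_mem i j m a2)
    have mF : Measurable fun x => Tm i j m (-m) (flip j x) := mS.comp (flip j).continuous.measurable
    have i2 := int _ mF fun x => Tm_mem i j m a2 _
    rw [eLp_eq i1 hK h0] at key
    have low : m / 16 ≤ (∫ x in K, ‖Tm i j m m x - Tm i j m (-m) x‖ ^ 2) / volume.real K := by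
      obtain ⟨B, hB⟩ : ∃ B : Set (EE d), B = box (fun l => if l = i then m else if l = j then 1 / 2
        else -1) (fun l => if l = i then 3 * m / 2 else 1) := ⟨_, rfl⟩
      have sB : B ⊆ K := fun x hx => (mK x).mpr fun l => by
        rw [hB, mem_box] at hx
        have := hx l
        rw [abs_le]
        split_ifs at this <;> constructor <;> linarith
      have vB : volume.real B = m / 16 * 2 ^ d := by
        rw [hB, box_vol fun l => by simp only; split_ifs <;> linarith]
        rw [Finset.prod_congr rfl (g := fun l => (if l = i then m / 4 else 1) *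
          (if l = j then 1 / 4 else 1) * 2) fun l _ => by
            by_cases h1 : l = i
            · have : l ≠ j := h1 ▸ hij
              simp [h1, hij]; ring
            · by_cases h2 : l = j
              · simp [h2, hij.symm]; ring
              · simp [h1, h2]; ring]
        rw [Finset.prod_mul_distrib, Finset.prod_mul_distrib]; simp; ring
      have cB : IsCompact B := by rw [hB]; exact box_compact _ _
      rw [le_div_iff₀ (by rw [vK]; positivity), vK, ← vB, ← int_one]
      refine le_trans (setIntegral_mono_on (intOn hK sB continuous_const) (i1.mono_set sB)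
        cB.measurableSet fun x hx => ?_) (setIntegral_mono_set i1
          (ae_of_all _ fun x => sq_nonneg _) sB.eventuallyLE)
      rw [hB, mem_box] at hx
      have b1 := hx i
      have b2 := hx j
      simp only [if_true, hij.symm, if_false] at b1 b2
      have b3 : 0 ≤ x i := by linarith
      have b4 := mul_le_mul_of_nonneg_left b2.1 m0.le
      unfold Tm
      rw [abs_of_nonneg b3, if_pos (by linarith), if_neg (by linarith), if_pos b3]
      have := PiLp.norm_apply_le (EuclideanSpace.single j m - EuclideanSpace.single i (1 : ℝ) : EE d) i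
      simp only [PiLp.sub_apply, PiLp.single_apply, hij, if_true, if_false, zero_sub, norm_neg,
        norm_one] at this
      exact one_le_pow₀ this
    have up : W2 ((unif K).map (Tm i j m m)) ((unif K).map (Tm i j m (-m)))
        ≤ ENNReal.ofReal (Real.sqrt (8 * m ^ 3)) := by
      have mG : Measurable fun x => (Tm i j m m x, Tm i j m (-m) (flip j x)) := mT.prodMk mF
      have inv : (unif K).map (flip j) = unif K := by
        have e : flip j ⁻¹' K = K := by
          ext x
          simp only [mem_preimage, mK, flip_apply]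
          refine forall_congr' fun l => ?_
          split_ifs <;> simp
        have := ((flip j).measurePreserving.restrict_preimage hK.measurableSet).map_eq
        rw [e] at this
        unfold unif
        rw [Measure.map_smul, this]
      refine iInf₂_le_of_le ((unif K).map fun x => (Tm i j m m x, Tm i j m (-m) (flip j x)))
        ⟨by rw [Measure.map_map measurable_fst mG]; rfl, by
          rw [Measure.map_map measurable_snd mG]
          conv_rhs => rw [← inv, Measure.map_map mS (flip j).continuous.measurable]
          rfl⟩ ?_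
      rw [lintegral_map (by fun_prop) mG, lint_sq i2, Real.sqrt_eq_rpow,
        ← ENNReal.ofReal_rpow_of_nonneg (by positivity) (by norm_num)]
      refine ENNReal.rpow_le_rpow ?_ (by norm_num)
      rw [← ENNReal.div_eq_inv_mul, ← ofReal_measureReal hK.measure_lt_top.ne,
        ← ENNReal.ofReal_div_of_pos (by rw [vK]; positivity)]
      refine ENNReal.ofReal_le_ofReal ?_
      obtain ⟨B, hB⟩ : ∃ B : Set (EE d), B = box (fun l => if l = i then -(2 * m) else -1)
        (fun l => if l = i then 2 * m else 1) := ⟨_, rfl⟩
      have cB : IsCompact B := by rw [hB]; exact box_compact _ _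
      have vB : volume.real B = 2 * m * 2 ^ d := by
        rw [hB, box_vol fun l => by simp only; split_ifs <;> linarith]
        rw [Finset.prod_congr rfl (g := fun l => (if l = i then 2 * m else 1) * 2) fun l _ => by
            split_ifs <;> ring]
        rw [Finset.prod_mul_distrib]; simp
      have : ∫ x in K, ‖Tm i j m m x - Tm i j m (-m) (flip j x)‖ ^ 2
          ≤ ∫ x in K, B.indicator (fun _ => 4 * m ^ 2) x := by
        refine setIntegral_mono_on i2 ((integrable_const _).indicator cB.measurableSet)
          hK.measurableSet fun x hx => ?_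
        have hx' := (mK x).mp hx
        have e1 : flip j x i = x i := by simp [flip_apply, hij]
        have e2 : flip j x j = -x j := by simp [flip_apply]
        unfold Tm
        rw [e1, e2, neg_mul_neg]
        by_cases h : |x i| ≤ m + m * x j
        · have : x ∈ B := by
            rw [hB, mem_box]
            intro l
            have c1 := abs_le.mp (hx' l)
            have c2 := mul_le_mul_of_nonneg_left (abs_le.mp (hx' j)).2 m0.le
            split_ifs with hl
            · rw [hl]; have := abs_le.mp h; constructor <;> linarith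
            · exact c1
          rw [if_pos h, if_pos h, indicator_of_mem this, ← PiLp.single_sub]
          simp only [PiLp.norm_single, Real.norm_eq_abs, sq_abs]
          exact le_of_eq (by ring)
        · rw [if_neg h, if_neg h, sub_self, norm_zero, zero_pow two_ne_zero]
          exact indicator_nonneg (fun _ _ => by positivity) x
      rw [div_le_iff₀ (by rw [vK]; positivity), vK]
      refine this.trans ?_
      rw [setIntegral_indicator cB.measurableSet, setIntegral_const, smul_eq_mul]
      calc _ ≤ volume.real B * (4 * m ^ 2) := by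
            gcongr
            exacts [cB.measure_lt_top.ne, inter_subset_right]
        _ = _ := by rw [vB]; ring
    have := (ENNReal.ofReal_le_ofReal (Real.sqrt_le_sqrt low)).trans (key.trans
      (mul_le_mul_right (ENNReal.rpow_le_rpow up (by linarith)) _))
    rwa [ENNReal.ofReal_rpow_of_nonneg (Real.sqrt_nonneg _) (by linarith),
      ← ENNReal.ofReal_coe_nnreal, ← ENNReal.ofReal_mul C.coe_nonneg,
      ENNReal.ofReal_le_ofReal_iff (by positivity)] at this
  have lim : Tendsto (fun s : ℝ => (C : ℝ) * 3 ^ α * s ^ (3 * α - 1)) (𝓝[>] 0) (𝓝 0) := by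
    have : ContinuousAt (fun s : ℝ => (C : ℝ) * 3 ^ α * s ^ (3 * α - 1)) 0 :=
      continuousAt_const.mul (Real.continuousAt_rpow_const _ _ (Or.inr (by linarith)))
    have := this.tendsto.mono_left (nhdsWithin_le_nhds (s := Ioi 0))
    rwa [Real.zero_rpow (by linarith), mul_zero] at this
  obtain ⟨s, h1, h2⟩ := ((lim.eventually (gt_mem_nhds (by norm_num : (0 : ℝ) < 1 / 4))).and
    (Ioo_mem_nhdsGT (by norm_num : (0 : ℝ) < 1 / 2))).exists
  have s0 := h2.1
  have := main (s ^ 2) (by positivity) (by nlinarith [h2.2])
  have e1 : Real.sqrt (s ^ 2 / 16) = s * (1 / 4) := by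
    rw [show s ^ 2 / 16 = (s * (1 / 4)) ^ 2 by ring, Real.sqrt_sq (by positivity)]
  have e2 : Real.sqrt (8 * (s ^ 2) ^ 3) ≤ 3 * s ^ 3 :=
    Real.sqrt_le_iff.mpr ⟨by positivity, by nlinarith [pow_pos s0 6]⟩
  have e3 : (3 * s ^ 3) ^ α = 3 ^ α * (s * s ^ (3 * α - 1)) := by
    rw [Real.mul_rpow (by norm_num) (by positivity), ← Real.rpow_natCast, ← Real.rpow_mul s0.le,
      Real.rpow_sub_one s0.ne']
    push_cast; field_simp
  have e4 := Real.rpow_le_rpow (Real.sqrt_nonneg _) e2 (by linarith : 0 ≤ α)
  rw [e3] at e4
  rw [e1] at this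
  have := this.trans (mul_le_mul_of_nonneg_left e4 C.coe_nonneg)
  nlinarith

end Vale.Agent.P074
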