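import Mathlib

namespace Vale.Agent.P074

open MeasureTheory Set
open scoped ENNReal

lemma vol_le_iSup_Iic (A : Set ℝ) (hA : MeasurableSet A) :
    volume A ≤ ⨆ a : A, volume (A ∩ Iic (a : ℝ)) := by
  rw [hA.measure_eq_iSup_isCompact volume]
  refine iSup_le fun K => iSup_le fun hKA => iSup_le fun hK => ?_
  rcases K.eq_empty_or_nonempty with rfl | hne
  · simp
  · obtain ⟨a, ha, hmax⟩ := hK.exists_isGreatest hne
    exact le_iSup_of_le ⟨a, hKA ha⟩ (measure_mono fun x hx => ⟨hKA hx, hmax hx⟩)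

lemma vol_le_iSup_Ioi (A : Set ℝ) (hA : MeasurableSet A) :
    volume A ≤ ⨆ a : A, volume (A ∩ Ioi (a : ℝ)) := by
  rw [hA.measure_eq_iSup_isCompact volume]
  refine iSup_le fun K => iSup_le fun hKA => iSup_le fun hK => ?_
  rcases K.eq_empty_or_nonempty with rfl | hne
  · simp
  · obtain ⟨a, ha, hmin⟩ := hK.exists_isLeast hne
    refine le_iSup_of_le ⟨a, hKA ha⟩ ?_
    have : K ⊆ A ∩ Ioi a ∪ {a} := fun x hx => by
      rcases (hmin hx).eq_or_lt with h | h
      · exact Or.inr h.symm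
      · exact Or.inl ⟨hKA hx, h⟩
    refine (measure_mono this).trans ((measure_union_le _ _).trans ?_)
    simp

lemma vol_half (A : Set ℝ) (b : ℝ) :
    2 * volume ((fun z : ℝ => 2 * z) ⁻¹' ((fun z => z + -b) ⁻¹' A)) = volume A := by
  rw [Real.volume_preimage_mul_left (by norm_num), measure_preimage_add_right, ← mul_assoc]
  have : (2 : ℝ≥0∞) * ENNReal.ofReal |(2 : ℝ)⁻¹| = 1 := by
    rw [abs_of_pos (by norm_num), ENNReal.ofReal_inv_of_pos (by norm_num)]
    simp [ENNReal.mul_inv_cancel]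
  rw [this, one_mul]

lemma bm1 (A B C : Set ℝ) (hA : MeasurableSet A) (hB : MeasurableSet B) (hA0 : A.Nonempty)
    (hB0 : B.Nonempty) (h : ∀ x ∈ A, ∀ y ∈ B, (1 / 2 : ℝ) • (x + y) ∈ C) :
    volume A + volume B ≤ 2 * volume C := by
  haveI := hA0.to_subtype
  haveI := hB0.to_subtype
  refine (add_le_add (vol_le_iSup_Iic A hA) (vol_le_iSup_Ioi B hB)).trans
    (ENNReal.iSup_add_iSup_le fun a b => ?_)
  rw [← vol_half (A ∩ Iic (a : ℝ)) b, ← vol_half (B ∩ Ioi (b : ℝ)) a, ← mul_add,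
    ← measure_union]
  · refine mul_le_mul_right (measure_mono ?_) _
    rintro z (hz | hz)
    · have := h _ hz.1 b b.2
      convert this using 1
      simp
    · have := h a a.2 _ hz.1
      convert this using 1
      simp
  · rw [Set.disjoint_left]
    intro z h1 h2
    have a1 : 2 * z + -(b : ℝ) ≤ a := h1.2
    have a2 : (b : ℝ) < 2 * z + -(a : ℝ) := h2.2
    linarith
  · exact ((hB.inter measurableSet_Ioi).preimage (by fun_prop)).preimage (by fun_prop)

lemma amgm {a b c : ℝ≥0∞} (h : a + b ≤ 2 * c) : a * b ≤ c ^ 2 := by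
  by_cases hc : c = ⊤
  · simp [hc]
  have h2 : 2 * c ≠ ⊤ := ENNReal.mul_ne_top (by norm_num) hc
  have ha : a ≠ ⊤ := ne_top_of_le_ne_top h2 (le_self_add.trans h)
  have hb : b ≠ ⊤ := ne_top_of_le_ne_top h2 (le_add_self.trans h)
  lift a to NNReal using ha
  lift b to NNReal using hb
  lift c to NNReal using hc
  have h' : (a : ℝ) + b ≤ 2 * c := by exact_mod_cast h
  have : (a : ℝ) * b ≤ c ^ 2 := by
    have := a.2; have := b.2
    have h0 : (0 : ℝ) ≤ a + b := by positivity
    nlinarith [sq_nonneg ((a : ℝ) - b)]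
  exact_mod_cast this

lemma pl_norm (F G H : ℝ → ℝ) (hF : Measurable F) (hG : Measurable G) (hH : Measurable H)
    (F0 : ∀ x, 0 ≤ F x) (G0 : ∀ x, 0 ≤ G x) (H0 : ∀ x, 0 ≤ H x)
    (F1 : ∀ x, F x ≤ 1) (G1 : ∀ x, G x ≤ 1) (F2 : ∀ t < 1, ∃ x, t < F x) (G2 : ∀ t < 1, ∃ x, t < G x)
    (h : ∀ x y, F x * G y ≤ H ((1 / 2 : ℝ) • (x + y)) ^ 2) :
    (∫⁻ x, ENNReal.ofReal (F x)) * (∫⁻ x, ENNReal.ofReal (G x))
      ≤ (∫⁻ x, ENNReal.ofReal (H x)) ^ 2 := by
  apply amgm
  rw [lintegral_eq_lintegral_meas_lt _ (ae_of_all _ F0) hF.aemeasurable,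
    lintegral_eq_lintegral_meas_lt _ (ae_of_all _ G0) hG.aemeasurable,
    lintegral_eq_lintegral_meas_lt _ (ae_of_all _ H0) hH.aemeasurable,
    ← lintegral_const_mul' _ _ (by norm_num), ← lintegral_add_left]
  · refine setLIntegral_mono' measurableSet_Ioi fun t ht => ?_
    by_cases ht1 : t < 1
    · refine bm1 _ _ _ (measurableSet_lt measurable_const hF) (measurableSet_lt measurable_const hG)
        (F2 t ht1) (G2 t ht1) fun x hx y hy => ?_
      have a1 : t < F x := hx
      have a2 : t < G y := hy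
      have a3 : (0 : ℝ) < t := ht
      have a4 : t ^ 2 < H ((1 / 2 : ℝ) • (x + y)) ^ 2 := lt_of_lt_of_le (by nlinarith) (h x y)
      exact lt_of_pow_lt_pow_left₀ 2 (H0 _) a4
    · have e1 : {a | t < F a} = ∅ := by
        ext a; simp only [mem_setOf_eq, mem_empty_iff_false, iff_false, not_lt]; linarith [F1 a]
      have e2 : {a | t < G a} = ∅ := by
        ext a; simp only [mem_setOf_eq, mem_empty_iff_false, iff_false, not_lt]; linarith [G1 a]
      simp [e1, e2]
  · exact Antitone.measurable fun s t hst => measure_mono fun a (ha : t < F a) => hst.trans_lt ha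

lemma pl_bdd (F G H : ℝ → ℝ) (hF : Measurable F) (hG : Measurable G) (hH : Measurable H)
    (F0 : ∀ x, 0 ≤ F x) (G0 : ∀ x, 0 ≤ G x) (H0 : ∀ x, 0 ≤ H x) (n : ℝ)
    (F1 : ∀ x, F x ≤ n) (G1 : ∀ x, G x ≤ n)
    (h : ∀ x y, F x * G y ≤ H ((1 / 2 : ℝ) • (x + y)) ^ 2) :
    (∫⁻ x, ENNReal.ofReal (F x)) * (∫⁻ x, ENNReal.ofReal (G x))
      ≤ (∫⁻ x, ENNReal.ofReal (H x)) ^ 2 := by
  have bF : BddAbove (range F) := ⟨n, by rintro _ ⟨x, rfl⟩; exact F1 x⟩
  have bG : BddAbove (range G) := ⟨n, by rintro _ ⟨x, rfl⟩; exact G1 x⟩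
  set a := ⨆ x, F x
  set b := ⨆ x, G x
  have Fa : ∀ x, F x ≤ a := fun x => le_ciSup bF x
  have Gb : ∀ x, G x ≤ b := fun x => le_ciSup bG x
  rcases ((F0 0).trans (Fa 0)).eq_or_lt with ha | ha
  · have : ∀ x, ENNReal.ofReal (F x) = 0 := fun x => ENNReal.ofReal_eq_zero.mpr (ha ▸ Fa x)
    simp [this]
  rcases ((G0 0).trans (Gb 0)).eq_or_lt with hb | hb
  · have : ∀ x, ENNReal.ofReal (G x) = 0 := fun x => ENNReal.ofReal_eq_zero.mpr (hb ▸ Gb x)
    simp [this]
  have hc : 0 < Real.sqrt (a * b) := Real.sqrt_pos.mpr (by positivity)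
  have hc2 : Real.sqrt (a * b) ^ 2 = a * b := Real.sq_sqrt (by positivity)
  set c := Real.sqrt (a * b)
  have key := pl_norm (fun x => F x / a) (fun x => G x / b) (fun x => H x / c) (by fun_prop)
    (by fun_prop) (by fun_prop) (fun x => div_nonneg (F0 x) ha.le) (fun x => div_nonneg (G0 x) hb.le)
    (fun x => div_nonneg (H0 x) hc.le) (fun x => (div_le_one ha).mpr (Fa x))
    (fun x => (div_le_one hb).mpr (Gb x))
    (fun t ht => by
      obtain ⟨x, hx⟩ := exists_lt_of_lt_ciSup (show t * a < ⨆ x, F x by nlinarith)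
      exact ⟨x, (lt_div_iff₀ ha).mpr hx⟩)
    (fun t ht => by
      obtain ⟨x, hx⟩ := exists_lt_of_lt_ciSup (show t * b < ⨆ x, G x by nlinarith)
      exact ⟨x, (lt_div_iff₀ hb).mpr hx⟩)
    (fun x y => by
      rw [div_mul_div_comm, div_pow, hc2]
      exact div_le_div_of_nonneg_right (h x y) (by positivity))
  have sc : ∀ (P : ℝ → ℝ) (r : ℝ), 0 < r → ∫⁻ x, ENNReal.ofReal (P x)
      = ENNReal.ofReal r * ∫⁻ x, ENNReal.ofReal (P x / r) := by
    intro P r hr
    rw [← lintegral_const_mul' _ _ ENNReal.ofReal_ne_top]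
    refine lintegral_congr fun x => ?_
    rw [← ENNReal.ofReal_mul hr.le, mul_div_cancel₀ _ hr.ne']
  rw [sc F a ha, sc G b hb, sc H c hc, mul_pow, mul_mul_mul_comm, ← ENNReal.ofReal_mul ha.le,
    ← ENNReal.ofReal_pow hc.le, hc2]
  exact mul_le_mul_right key _

def PL (α : Type) [MeasureSpace α] [AddCommGroup α] [Module ℝ α] : Prop :=
  ∀ f g h : α → ℝ≥0∞, Measurable f → Measurable g → Measurable h →
    (∀ x y, f x * g y ≤ h ((1 / 2 : ℝ) • (x + y)) ^ 2) → (∫⁻ x, f x) * (∫⁻ x, g x) ≤ (∫⁻ x, h x) ^ 2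

lemma lint_trunc {α : Type} [MeasureSpace α] (f : α → ℝ≥0∞) (hf : Measurable f) :
    ∫⁻ x, f x = ⨆ n : ℕ, ∫⁻ x, min (f x) n := by
  rw [← lintegral_iSup (fun n => hf.min measurable_const)
    (fun m n hmn x => min_le_min le_rfl (by exact_mod_cast hmn))]
  refine lintegral_congr fun x => ?_
  rw [← inf_iSup_eq, ENNReal.iSup_natCast]; simp

lemma pl_real : PL ℝ := by
  intro f g h hf hg hh H
  rw [lint_trunc f hf, lint_trunc g hg, ENNReal.iSup_mul]
  refine iSup_le fun m => ?_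
  rw [ENNReal.mul_iSup]
  refine iSup_le fun k => ?_
  set n := max m k
  have fin : ∀ (a : ℝ≥0∞), min a n ≠ ⊤ := fun a =>
    ne_top_of_le_ne_top (ENNReal.natCast_ne_top n) (min_le_right _ _)
  have bd : ∀ (a : ℝ≥0∞), (min a n).toReal ≤ n := fun a => by
    have := ENNReal.toReal_mono (ENNReal.natCast_ne_top n) (min_le_right a n)
    simpa using this
  have key := pl_bdd (fun x => (min (f x) n).toReal) (fun x => (min (g x) n).toReal)
    (fun x => (min (h x) n).toReal) (by fun_prop) (by fun_prop) (by fun_prop)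
    (fun _ => ENNReal.toReal_nonneg) (fun _ => ENNReal.toReal_nonneg)
    (fun _ => ENNReal.toReal_nonneg) n (fun x => bd _) (fun x => bd _) (fun x y => by
      rw [← ENNReal.toReal_mul, ← ENNReal.toReal_pow]
      refine ENNReal.toReal_mono (ENNReal.pow_ne_top (fin _)) ?_
      rcases le_total (h ((1 / 2 : ℝ) • (x + y))) n with h1 | h1
      · rw [min_eq_left h1]
        exact (mul_le_mul' (min_le_left _ _) (min_le_left _ _)).trans (H x y)
      · rw [min_eq_right h1, sq]
        exact mul_le_mul' (min_le_right _ _) (min_le_right _ _))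
  simp only [ENNReal.ofReal_toReal (fin _)] at key
  refine le_trans (mul_le_mul' (lintegral_mono fun x => ?_) (lintegral_mono fun x => ?_))
    (key.trans (pow_le_pow_left' (lintegral_mono fun x => min_le_left _ _) 2))
  · exact min_le_min le_rfl (by exact_mod_cast le_max_left m k)
  · exact min_le_min le_rfl (by exact_mod_cast le_max_right m k)

lemma PL.prod {α β : Type} [MeasureSpace α] [AddCommGroup α] [Module ℝ α] [MeasureSpace β]
    [AddCommGroup β] [Module ℝ β] [SFinite (volume : Measure β)] (ha : PL α) (hb : PL β) :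
    PL (α × β) := by
  intro f g h hf hg hh H
  rw [Measure.volume_eq_prod, lintegral_prod _ hf.aemeasurable, lintegral_prod _ hg.aemeasurable,
    lintegral_prod _ hh.aemeasurable]
  refine ha _ _ _ hf.lintegral_prod_right' hg.lintegral_prod_right' hh.lintegral_prod_right'
    fun x y => ?_
  exact hb (fun u => f (x, u)) (fun u => g (y, u)) (fun u => h ((1 / 2 : ℝ) • (x + y), u))
    (by fun_prop) (by fun_prop) (by fun_prop) fun u v => H (x, u) (y, v)

lemma PL.transfer {α β : Type} [MeasureSpace α] [AddCommGroup α] [Module ℝ α] [MeasureSpace β]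
    [AddCommGroup β] [Module ℝ β] (e : α → β) (he : MeasurePreserving e)
    (hm : ∀ x y, e ((1 / 2 : ℝ) • (x + y)) = (1 / 2 : ℝ) • (e x + e y)) (ha : PL α) : PL β := by
  intro f g h hf hg hh H
  rw [← he.lintegral_comp hf, ← he.lintegral_comp hg, ← he.lintegral_comp hh]
  refine ha _ _ _ (hf.comp he.measurable) (hg.comp he.measurable) (hh.comp he.measurable)
    fun x y => ?_
  rw [hm]; exact H _ _

lemma pl_pi : ∀ d : ℕ, PL (Fin d → ℝ)
  | 0 => by
    intro f g h _ _ _ H
    have : (volume : Measure (Fin 0 → ℝ)) = Measure.dirac 0 := by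
      rw [volume_pi, Measure.pi_of_empty]; congr 1; exact Subsingleton.elim _ _
    simp only [this, lintegral_dirac]
    simpa using H 0 0
  | d + 1 => by
    refine PL.transfer (MeasurableEquiv.piFinSuccAbove (fun _ : Fin (d + 1) => ℝ) 0).symm
      (volume_preserving_piFinSuccAbove (fun _ : Fin (d + 1) => ℝ) 0).symm ?_
      (pl_real.prod (pl_pi d))
    intro x y
    funext i
    refine Fin.cases ?_ (fun j => ?_) i <;>
      simp [MeasurableEquiv.piFinSuccAbove, Fin.insertNthEquiv, mul_add]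

lemma pl_euc (d : ℕ) : PL (EuclideanSpace ℝ (Fin d)) :=
  PL.transfer (WithLp.toLp 2) (PiLp.volume_preserving_toLp _) (fun _ _ => rfl) (pl_pi d)

end Vale.Agent.P074
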