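import Vale.Agent.P074.Cell

namespace Vale.Agent.P074

open MeasureTheory Set Filter Topology
open scoped ENNReal RealInnerProductSpace

variable {d : ℕ} {ι : Type} [Fintype ι] [Nonempty ι]

noncomputable def pot (y : ι → EE d) (ψ : ι → ℝ) (x : EE d) : ℝ :=
  Finset.univ.sup' Finset.univ_nonempty fun k => ⟪y k, x⟫ - ψ k

lemma pot_ge (y : ι → EE d) (ψ : ι → ℝ) (x : EE d) (k : ι) : ⟪y k, x⟫ - ψ k ≤ pot y ψ x :=
  Finset.le_sup' (fun k => ⟪y k, x⟫ - ψ k) (Finset.mem_univ k)

lemma pot_ex (y : ι → EE d) (ψ : ι → ℝ) (x : EE d) : ∃ k, pot y ψ x = ⟪y k, x⟫ - ψ k := by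
  obtain ⟨k, -, hk⟩ := Finset.exists_mem_eq_sup' Finset.univ_nonempty (fun k => ⟪y k, x⟫ - ψ k)
  exact ⟨k, hk⟩

lemma pot_cont2 (y : ι → EE d) : Continuous fun p : (ι → ℝ) × EE d => pot y p.1 p.2 := by
  unfold pot
  exact Continuous.finset_sup'_apply _ (f := fun k (p : (ι → ℝ) × EE d) => ⟪y k, p.2⟫ - p.1 k)
    fun k _ => by fun_prop

lemma pot_cont (y : ι → EE d) (ψ : ι → ℝ) : Continuous (pot y ψ) :=
  (pot_cont2 y).comp (f := fun x => (ψ, x)) (by fun_prop)

def cell (K : Set (EE d)) (y : ι → EE d) (ψ : ι → ℝ) (k : ι) : Set (EE d) :=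
  K ∩ {x | pot y ψ x ≤ ⟪y k, x⟫ - ψ k}

lemma cell_sub (K : Set (EE d)) (y : ι → EE d) (ψ : ι → ℝ) (k : ι) : cell K y ψ k ⊆ K :=
  inter_subset_left

lemma cell_eq {K : Set (EE d)} {y : ι → EE d} {ψ : ι → ℝ} {k : ι} {x : EE d}
    (h : x ∈ cell K y ψ k) : pot y ψ x = ⟪y k, x⟫ - ψ k := le_antisymm h.2 (pot_ge _ _ _ _)

lemma cell_meas {K : Set (EE d)} (hK : IsCompact K) (y : ι → EE d) (ψ : ι → ℝ) (k : ι) :
    MeasurableSet (cell K y ψ k) :=
  hK.measurableSet.inter (isClosed_le (pot_cont y ψ) (by fun_prop)).measurableSet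

lemma cell_union (K : Set (EE d)) (y : ι → EE d) (ψ : ι → ℝ) : ⋃ k, cell K y ψ k = K := by
  refine subset_antisymm (iUnion_subset (cell_sub K y ψ)) fun x hx => ?_
  obtain ⟨k, hk⟩ := pot_ex y ψ x
  exact mem_iUnion.mpr ⟨k, hx, hk.le⟩

lemma hyper_null {w : EE d} (hw : w ≠ 0) (c : ℝ) : volume {x : EE d | ⟪w, x⟫ = c} = 0 := by
  let A : AffineSubspace ℝ (EE d) :=
    { carrier := {x | ⟪w, x⟫ = c}
      smul_vsub_vadd_mem' := fun t p1 p2 p3 h1 h2 h3 => by
        simp only [mem_setOf_eq, vsub_eq_sub, vadd_eq_add, inner_add_right, inner_smul_right,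
          inner_sub_right] at *
        rw [h1, h2, h3]; ring }
  refine Measure.addHaar_affineSubspace volume A fun h => ?_
  have h0 : (0 : EE d) ∈ A := by rw [h]; trivial
  have h1 : w ∈ A := by rw [h]; trivial
  have e0 : ⟪w, (0 : EE d)⟫ = c := h0
  have e1 : ⟪w, w⟫ = c := h1
  rw [inner_zero_right] at e0
  exact hw (inner_self_eq_zero.mp (e1.trans e0.symm))

lemma cell_disj (K : Set (EE d)) {y : ι → EE d} (hy : Function.Injective y) (ψ : ι → ℝ) :
    Pairwise (Function.onFun (AEDisjoint volume) (cell K y ψ)) := by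
  intro k l hkl
  refine measure_mono_null (fun x hx => ?_)
    (hyper_null (w := y k - y l) (sub_ne_zero.mpr (hy.ne hkl)) (ψ k - ψ l))
  have a := cell_eq hx.1
  have b := cell_eq hx.2
  simp only [mem_setOf_eq, inner_sub_left]
  linarith

lemma sum_cell {K : Set (EE d)} (hK : IsCompact K) {y : ι → EE d} (hy : Function.Injective y)
    (ψ : ι → ℝ) {f : EE d → ℝ} (hf : IntegrableOn f K) :
    ∑ k, ∫ x in cell K y ψ k, f x = ∫ x in K, f x := by
  rw [← tsum_fintype (L := .unconditional _), ← integral_iUnion_ae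
    (fun k => (cell_meas hK y ψ k).nullMeasurableSet) (cell_disj K hy ψ)
    (by rwa [cell_union]), cell_union]

lemma cell_mid {K : Set (EE d)} (hc : Convex ℝ K) (y : ι → EE d) (ψ0 ψ1 : ι → ℝ) (k : ι) :
    ∀ x ∈ cell K y ψ0 k, ∀ x' ∈ cell K y ψ1 k,
      (1 / 2 : ℝ) • (x + x') ∈ cell K y (fun l => (ψ0 l + ψ1 l) / 2) k := by
  intro x hx x' hx'
  refine ⟨?_, ?_⟩
  · rw [smul_add]; exact hc hx.1 hx'.1 (by norm_num) (by norm_num) (by norm_num)
  · obtain ⟨l, hl⟩ := pot_ex y (fun l => (ψ0 l + ψ1 l) / 2) ((1 / 2 : ℝ) • (x + x'))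
    have a := (pot_ge y ψ0 x l).trans hx.2
    have b := (pot_ge y ψ1 x' l).trans hx'.2
    simp only [mem_setOf_eq, hl, inner_smul_right, inner_add_right]
    linarith

noncomputable def Phi (K : Set (EE d)) (V : ι → ℝ) (p : EE d → ℝ) (y : ι → EE d) (ψ : ι → ℝ) : ℝ :=
  (∫ x in K, pot y ψ x * p x) + ∑ k, V k * ψ k

def Opt (K : Set (EE d)) (V : ι → ℝ) (p : EE d → ℝ) (y : ι → EE d) (ψ : ι → ℝ) : Prop :=
  ∀ k, ∫ x in cell K y ψ k, p x = V k

noncomputable def Bar (K : Set (EE d)) (p : EE d → ℝ) (y : ι → EE d) (ψ : ι → ℝ)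
    (w : ι → EE d) : ℝ :=
  ∑ k, ∫ x in cell K y ψ k, ⟪w k, x⟫ * p x

lemma dual_gap {K : Set (EE d)} (hK : IsCompact K) {V : ι → ℝ} {p : EE d → ℝ} (hp : Continuous p)
    {y : ι → EE d} (hy : Function.Injective y) {ψ : ι → ℝ} (h : Opt K V p y ψ)
    (y' : ι → EE d) (ψ' : ι → ℝ) :
    Phi K V p y' ψ' - Bar K p y ψ y'
      = ∑ k, ∫ x in cell K y ψ k, (pot y' ψ' x - (⟪y' k, x⟫ - ψ' k)) * p x := by
  have hq := pot_cont y' ψ'
  unfold Phi Bar
  rw [← sum_cell hK hy ψ (intOn hK subset_rfl (by fun_prop)), ← Finset.sum_add_distrib,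
    ← Finset.sum_sub_distrib]
  refine Finset.sum_congr rfl fun k _ => ?_
  have s := cell_sub K y ψ k
  rw [← h k, ← integral_mul_const, ← integral_add (intOn hK s (by fun_prop))
    (intOn hK s (by fun_prop)), ← integral_sub (intOn hK s (by fun_prop))
    (intOn hK s (by fun_prop))]
  congr 1; ext x; ring

lemma dual_le {K : Set (EE d)} (hK : IsCompact K) {V : ι → ℝ} {p : EE d → ℝ} (hp : Continuous p)
    (hp0 : ∀ x ∈ K, 0 ≤ p x)
    {y : ι → EE d} (hy : Function.Injective y) {ψ : ι → ℝ} (h : Opt K V p y ψ)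
    (y' : ι → EE d) (ψ' : ι → ℝ) : Bar K p y ψ y' ≤ Phi K V p y' ψ' := by
  rw [← sub_nonneg, dual_gap hK hp hy h]
  refine Finset.sum_nonneg fun k _ => setIntegral_nonneg (cell_meas hK y ψ k) fun x hx => ?_
  exact mul_nonneg (sub_nonneg.mpr (pot_ge _ _ _ _)) (hp0 x hx.1)

lemma dual_eq {K : Set (EE d)} (hK : IsCompact K) {V : ι → ℝ} {p : EE d → ℝ} (hp : Continuous p)
    {y : ι → EE d} (hy : Function.Injective y) {ψ : ι → ℝ} (h : Opt K V p y ψ) :
    Phi K V p y ψ = Bar K p y ψ y := by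
  rw [← sub_eq_zero, dual_gap hK hp hy h]
  refine Finset.sum_eq_zero fun k _ => ?_
  rw [setIntegral_congr_fun (cell_meas hK y ψ k) (g := fun _ => 0) fun x hx => by
    simp [cell_eq hx]]
  simp

lemma pint_cont {K : Set (EE d)} (hK : IsCompact K) {p : EE d → ℝ} (hp : Continuous p)
    (y : ι → EE d) : Continuous fun ψ : ι → ℝ => ∫ x in K, pot y ψ x * p x := by
  have := pot_cont2 y
  exact continuous_parametric_integral_of_continuous (f := fun ψ x => pot y ψ x * p x)
    (by unfold Function.uncurry; fun_prop) hK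

lemma Phi_cont {K : Set (EE d)} (hK : IsCompact K) (V : ι → ℝ) {p : EE d → ℝ} (hp : Continuous p)
    (y : ι → EE d) : Continuous (Phi K V p y) := by
  have := pint_cont hK hp y
  unfold Phi
  fun_prop

lemma exists_opt {K : Set (EE d)} (hK : IsCompact K) {V : ι → ℝ} (hV : ∀ k, 0 ≤ V k)
    {p : EE d → ℝ} (hp : Continuous p) (hp0 : ∀ x ∈ K, 0 ≤ p x) (hs : ∑ k, V k = ∫ x in K, p x)
    {y : ι → EE d} (hy : Function.Injective y) {M : ℝ} (hM0 : 0 ≤ M)
    (hM : ∀ x ∈ K, ∀ k l, ⟪y k, x⟫ - ⟪y l, x⟫ ≤ M) :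
    ∃ ψ ∈ Icc (fun _ => (0 : ℝ)) (fun _ => M), Opt K V p y ψ := by
  classical
  obtain ⟨ψ, hψ, hmin⟩ := (isCompact_Icc (a := fun _ : ι => (0 : ℝ)) (b := fun _ => M)).exists_isMinOn
    ⟨fun _ => 0, le_rfl, fun _ => hM0⟩ (Phi_cont hK V hp y).continuousOn
  have glob : ∀ φ, Phi K V p y ψ ≤ Phi K V p y φ := by
    intro φ
    obtain ⟨k0, hk0⟩ := Finite.exists_min φ
    have hb : (fun k => min (φ k) (φ k0 + M) - φ k0) ∈ Icc (fun _ : ι => (0 : ℝ)) (fun _ => M) :=
      ⟨fun k => by have := hk0 k; simp only [sub_nonneg, le_min_iff]; constructor <;> linarith,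
        fun k => by have := min_le_right (φ k) (φ k0 + M); simp only; linarith⟩
    refine (hmin hb).trans ?_
    have hq := pot_cont y φ
    have hq' := pot_cont y (fun k => min (φ k) (φ k0 + M) - φ k0)
    have a : ∫ x in K, pot y (fun k => min (φ k) (φ k0 + M) - φ k0) x * p x
        ≤ ∫ x in K, (pot y φ x * p x + φ k0 * p x) := by
      refine setIntegral_mono_on (intOn hK subset_rfl (by fun_prop))
        (intOn hK subset_rfl (by fun_prop)) hK.measurableSet fun x hx => ?_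
      rw [← add_mul]
      refine mul_le_mul_of_nonneg_right ?_ (hp0 x hx)
      obtain ⟨l, hl⟩ := pot_ex y (fun k => min (φ k) (φ k0 + M) - φ k0) x
      rw [hl]
      have := pot_ge y φ x l
      have := pot_ge y φ x k0
      have := hM x hx l k0
      rcases min_choice (φ l) (φ k0 + M) with e | e <;> rw [e] <;> linarith
    rw [integral_add (intOn hK subset_rfl (by fun_prop)) (intOn hK subset_rfl (by fun_prop)),
      integral_const_mul, ← hs, Finset.mul_sum] at a
    have b : ∑ k, V k * (min (φ k) (φ k0 + M) - φ k0) ≤ ∑ k, (V k * φ k - φ k0 * V k) :=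
      Finset.sum_le_sum fun k _ => by
        have := mul_le_mul_of_nonneg_left (min_le_left (φ k) (φ k0 + M)) (hV k)
        linarith
    rw [Finset.sum_sub_distrib] at b
    simp only [Phi]
    linarith
  refine ⟨ψ, hψ, ?_⟩
  have hq := pot_cont y ψ
  have ge : ∀ k, V k ≤ ∫ x in cell K y ψ k, p x := by
    intro k
    let S : ℕ → Set (EE d) := fun n => K ∩ {x | pot y ψ x ≤ ⟪y k, x⟫ - ψ k + 1 / ((n : ℝ) + 1)}
    have mS : ∀ n, MeasurableSet (S n) := fun n =>
      hK.measurableSet.inter (isClosed_le hq (by fun_prop)).measurableSet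
    have anti : Antitone S := fun n m hnm x hx => ⟨hx.1, by
      have : (n : ℝ) ≤ m := by exact_mod_cast hnm
      have h : pot y ψ x ≤ ⟪y k, x⟫ - ψ k + 1 / ((m : ℝ) + 1) := hx.2
      show pot y ψ x ≤ ⟪y k, x⟫ - ψ k + 1 / ((n : ℝ) + 1)
      refine h.trans ?_
      gcongr⟩
    have lim := tendsto_setIntegral_of_antitone (μ := volume) (f := p) mS anti
      ⟨0, intOn hK inter_subset_left hp⟩
    have e : ⋂ n, S n = cell K y ψ k := by
      ext x
      simp only [mem_iInter]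
      constructor
      · intro h
        refine ⟨(h 0).1, ge_of_tendsto' (x := atTop)
          (f := fun n : ℕ => ⟪y k, x⟫ - ψ k + 1 / ((n : ℝ) + 1)) ?_ fun n => (h n).2⟩
        simpa using tendsto_one_div_add_atTop_nhds_zero_nat.const_add (⟪y k, x⟫ - ψ k)
      · intro h n
        have h2 : pot y ψ x ≤ ⟪y k, x⟫ - ψ k := h.2
        have h3 : (0 : ℝ) ≤ 1 / ((n : ℝ) + 1) := by positivity
        exact ⟨h.1, h2.trans (le_add_of_nonneg_right h3)⟩
    rw [e] at lim
    refine ge_of_tendsto' lim fun n => ?_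
    obtain ⟨η, hη⟩ : ∃ η : ℝ, η = 1 / ((n : ℝ) + 1) := ⟨_, rfl⟩
    have hη0 : 0 < η := by rw [hη]; positivity
    have g := glob (fun l => ψ l - if l = k then η else 0)
    have hq' := pot_cont y (fun l => ψ l - if l = k then η else 0)
    have i1 : IntegrableOn ((S n).indicator p) K := (intOn hK subset_rfl hp).indicator (mS n)
    have a : ∫ x in K, pot y (fun l => ψ l - if l = k then η else 0) x * p x
        ≤ ∫ x in K, (pot y ψ x * p x + η * (S n).indicator p x) := by
      refine setIntegral_mono_on (intOn hK subset_rfl (by fun_prop))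
        ((intOn hK subset_rfl (by fun_prop)).add (i1.const_mul _)) hK.measurableSet fun x hx => ?_
      obtain ⟨l, hl⟩ := pot_ex y (fun l => ψ l - if l = k then η else 0) x
      have := pot_ge y ψ x l
      have p0 := hp0 x hx
      by_cases hS : x ∈ S n
      · rw [indicator_of_mem hS, ← add_mul]
        refine mul_le_mul_of_nonneg_right ?_ p0
        rw [hl]; split_ifs <;> linarith
      · rw [indicator_of_notMem hS, mul_zero, add_zero]
        refine mul_le_mul_of_nonneg_right ?_ p0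
        have : ¬ pot y ψ x ≤ ⟪y k, x⟫ - ψ k + η := fun h => hS ⟨hx, by rw [hη] at h; exact h⟩
        rw [hl]; split_ifs with e
        · subst e; linarith
        · linarith
    rw [integral_add (intOn hK subset_rfl (by fun_prop)) (i1.const_mul _), integral_const_mul,
      setIntegral_indicator (mS n), inter_eq_right.mpr inter_subset_left] at a
    have b : ∑ l, V l * (ψ l - if l = k then η else 0) = ∑ l, V l * ψ l - V k * η := by
      simp [mul_sub, Finset.sum_sub_distrib]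
    simp only [Phi] at g
    rw [b] at g
    have : η * V k ≤ η * ∫ x in S n, p x := by linarith
    exact le_of_mul_le_mul_left this hη0
  have := (Finset.sum_eq_sum_iff_of_le (s := Finset.univ) fun k _ => ge k).mp
    (by rw [sum_cell hK hy ψ (intOn hK subset_rfl hp), hs])
  exact fun k => (this k (Finset.mem_univ k)).symm

end Vale.Agent.P074
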