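import Vale.Agent.P074.Approx

namespace Vale.Agent.P074

open MeasureTheory Set Filter Topology
open scoped ENNReal RealInnerProductSpace

variable {d : ℕ}

lemma real_fin {D C a α : ℝ} (hC : 0 < C) (ha : 0 ≤ a) (hα : 0 < α) (hα3 : α ≤ 1 / 3) (h1 : D ≤ C)
    (h2 : ∀ t, 0 < t → t ≤ 1 → D ≤ C * (a ^ 2 / t ^ 2 + t)) : D ≤ 2 * C * (a ^ α) ^ 2 := by
  rcases ha.eq_or_lt with rfl | ha
  · rw [Real.zero_rpow hα.ne']
    simp only [ne_eq, OfNat.ofNat_ne_zero, not_false_eq_true, zero_pow, mul_zero]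
    refine le_of_forall_pos_le_add fun ε hε => ?_
    have := h2 (min 1 (ε / C)) (by positivity) (min_le_left _ _)
    simp only [ne_eq, OfNat.ofNat_ne_zero, not_false_eq_true, zero_pow, zero_div, zero_add] at this ⊢
    refine this.trans ?_
    calc _ ≤ C * (ε / C) := by gcongr; exact min_le_right _ _
      _ = _ := by field_simp
  rcases le_total a 1 with h | h
  · obtain ⟨b, hb⟩ : ∃ b, b = a ^ (1 / 3 : ℝ) := ⟨_, rfl⟩
    have b0 : 0 < b := by rw [hb]; positivity
    have b1 : b ≤ 1 := by rw [hb]; exact Real.rpow_le_one ha.le h (by norm_num)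
    have b3 : a = b ^ 3 := by
      rw [hb, ← Real.rpow_natCast, ← Real.rpow_mul ha.le]; norm_num
    have b4 : b ≤ a ^ α := by rw [hb]; exact Real.rpow_le_rpow_of_exponent_ge ha h hα3
    have := h2 (b ^ 2) (by positivity) (pow_le_one₀ b0.le b1)
    have e : C * (a ^ 2 / (b ^ 2) ^ 2 + b ^ 2) = 2 * C * b ^ 2 := by rw [b3]; field_simp; ring
    rw [e] at this
    exact this.trans (by gcongr)
  · have : 1 ≤ (a ^ α) ^ 2 := one_le_pow₀ (Real.one_le_rpow h hα.le)
    nlinarith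

lemma eLp_eq {K : Set (EE d)} {f : EE d → EE d} (hf : IntegrableOn (fun x => ‖f x‖ ^ 2) K)
    (hK : IsCompact K) (h0 : volume K ≠ 0) :
    eLpNorm f 2 (unif K) = ENNReal.ofReal (Real.sqrt ((∫ x in K, ‖f x‖ ^ 2) / volume.real K)) := by
  have vK : 0 < volume.real K := ENNReal.toReal_pos h0 hK.measure_lt_top.ne
  rw [eLpNorm_eq_lintegral_rpow_enorm_toReal (by norm_num) (by norm_num)]
  simp only [ENNReal.toReal_ofNat, ENNReal.rpow_ofNat]
  rw [lint_sq hf, Real.sqrt_eq_rpow, ← ENNReal.ofReal_rpow_of_nonneg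
    (div_nonneg (integral_nonneg fun x => sq_nonneg _) vK.le) (by norm_num),
    ENNReal.ofReal_div_of_pos vK, ofReal_measureReal hK.measure_lt_top.ne, ENNReal.div_eq_inv_mul]

lemma lint_coup {γ : Measure (EE d × EE d)}
    (h : Integrable (fun p : EE d × EE d => ‖p.1 - p.2‖ ^ 2) γ) :
    (∫⁻ p, ‖p.1 - p.2‖ₑ ^ 2 ∂γ) ^ (1 / 2 : ℝ)
      = ENNReal.ofReal (Real.sqrt (∫ p, ‖p.1 - p.2‖ ^ 2 ∂γ)) := by
  rw [Real.sqrt_eq_rpow, ← ENNReal.ofReal_rpow_of_nonneg (integral_nonneg fun x => sq_nonneg _)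
    (by norm_num), ofReal_integral_eq_lintegral_ofReal h (ae_of_all _ fun x => sq_nonneg _)]
  congr 2; ext x
  rw [ENNReal.ofReal_pow (norm_nonneg _), ofReal_norm]

theorem upper (hd : 0 < d) {α : ℝ} (hα : 0 < α) (hα3 : α ≤ 1 / 3) : Admissible d α := by
  intro K hK hc hi Y hY ne
  have hw : (EuclideanSpace.single (⟨0, hd⟩ : Fin d) (1 : ℝ) : EE d) ≠ 0 := by
    rw [← norm_ne_zero_iff]; simp
  have h0 : volume K ≠ 0 := (Measure.measure_pos_of_nonempty_interior volume hi).ne'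
  have vK : 0 < volume.real K := ENNReal.toReal_pos h0 hK.measure_lt_top.ne
  obtain ⟨x0, hx0⟩ := hi
  obtain ⟨r0, hr0, hB⟩ := Metric.nhds_basis_closedBall.mem_iff.mp (mem_interior_iff_mem_nhds.mp hx0)
  obtain ⟨R, hR, hKR⟩ := hK.isBounded.exists_pos_norm_le
  obtain ⟨L, hL0, hL⟩ := hY.isBounded.exists_pos_norm_le
  obtain ⟨A, hA⟩ : ∃ A, A = d * (9 / r0 ^ 2 * (5000000000 * R ^ 2 * 2)) := ⟨_, rfl⟩
  obtain ⟨B, hB'⟩ : ∃ B, B = (8 * d + 4) * (L + 1) ^ 2 * d := ⟨_, rfl⟩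
  have A0 : 0 ≤ A := by rw [hA]; positivity
  have B0 : 0 ≤ B := by rw [hB']; positivity
  obtain ⟨C, hC⟩ : ∃ C, C = A + B + 4 * L ^ 2 := ⟨_, rfl⟩
  have C0 : 0 < C := by rw [hC]; positivity
  refine ⟨(Real.sqrt (2 * C)).toNNReal, fun μ ν pμ pν hμ hν T S hT hS => ?_⟩
  have aT := ae_mem hK h0 hY hT.1 hμ hT.2.1
  have aS := ae_mem hK h0 hY hS.1 hν hS.2.1
  have mT := hT.1
  have mS := hS.1
  have fK : IsFiniteMeasure (volume.restrict K) := isFiniteMeasure_restrict.mpr hK.measure_lt_top.ne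
  have nb : ∀ᵐ x ∂(volume.restrict K), ‖T x - S x‖ ^ 2 ≤ 4 * L ^ 2 := by
    filter_upwards [aT, aS] with x a b
    have : ‖T x - S x‖ ≤ 2 * L := (norm_sub_le _ _).trans (by linarith [hL _ a, hL _ b])
    have := pow_le_pow_left₀ (norm_nonneg _) this 2
    linarith
  have iN : IntegrableOn (fun x => ‖T x - S x‖ ^ 2) K :=
    Integrable.of_bound (by fun_prop : Measurable _).aestronglyMeasurable (4 * L ^ 2)
      (nb.mono fun x h => by rwa [Real.norm_of_nonneg (sq_nonneg _)])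
  rw [eLp_eq iN hK h0]
  obtain ⟨D, hD⟩ : ∃ D, D = (∫ x in K, ‖T x - S x‖ ^ 2) / volume.real K := ⟨_, rfl⟩
  rw [← hD]
  have D1 : D ≤ C := by
    have := integral_mono_ae iN (integrable_const (4 * L ^ 2)) nb
    simp only [integral_const, MeasurableSet.univ, measureReal_restrict_apply, univ_inter,
      smul_eq_mul] at this
    rw [hD, div_le_iff₀ vK, hC]
    nlinarith
  have main : ∀ γ : Measure (EE d × EE d), γ.map Prod.fst = μ → γ.map Prod.snd = ν →
      D ≤ 2 * C * (Real.sqrt (∫ p, ‖p.1 - p.2‖ ^ 2 ∂γ) ^ α) ^ 2 := by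
    intro γ h1 h2
    refine real_fin C0 (Real.sqrt_nonneg _) hα hα3 D1 fun t t0 t1 => ?_
    obtain ⟨W, hW⟩ : ∃ W, W = ∫ p, ‖p.1 - p.2‖ ^ 2 ∂γ := ⟨_, rfl⟩
    have W0 : 0 ≤ W := by rw [hW]; exact integral_nonneg fun _ => sq_nonneg _
    rw [← hW, Real.sq_sqrt W0]
    obtain ⟨Z, hZ⟩ : ∃ Z, Z = d * (9 / (t * r0) ^ 2 * (5000000000 * R ^ 2 * 8)
      + 4 * (L + 1) / (t * r0) * (12 * R)) := ⟨_, rfl⟩
    have Z0 : 0 ≤ Z := by rw [hZ]; positivity
    have step : ∀ ε, 0 < ε → ε ≤ 1 → D ≤ A * (W / t ^ 2) + B * t + Z * ε := by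
      intro ε e0 e1
      obtain ⟨u, u', cu, cu', lu, g1, g2, c, g3⟩ :=
        approx hw hK hc h0 hY ne hR hKR hL hμ hν h1 h2 hT hS e0
      have G := gap_le hK cu cu' (L := L + 1) (fun x y => (lu x y).trans (by gcongr)) mT mS
        (γ := fun x => gam K u x (T x)) (γ' := fun x => gam K u' x (S x))
        (intT hK hY mT aT (gam_cont hK cu)) (intT hK hY mS aS (gam_cont hK cu')) (by
          filter_upwards [aT, aS, ae_restrict_mem hK.measurableSet] with x a b hx
          exact ⟨by linarith [hL _ a], by linarith [hL _ b], gam_nonneg hK cu _ hx,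
            gam_nonneg hK cu' _ hx, fun x' h => gam_sub hK cu _ _ h,
            fun x' h => gam_sub hK cu' _ _ h⟩) hc hr0 hB (by linarith) t0 t1 c
      rw [← hW] at g3
      have e2 : ε ^ 2 ≤ ε := by nlinarith
      rw [hD, div_le_iff₀ vK]
      refine G.trans ?_
      rw [int_one]
      calc _ ≤ d * (9 / (t * r0) ^ 2 * (5000000000 * R ^ 2 * (volume.real K * (2 * W + 8 * ε)))
            + 4 * (L + 1) / (t * r0) * (2 * (2 * R * (2 * ε) * volume.real K)
              + 2 * R * (2 * ε) * volume.real K))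
            + (8 * d + 4) * (L + 1) ^ 2 * (d * t * volume.real K) := by
            gcongr
            exact g3.trans (by gcongr)
        _ = _ := by rw [hA, hB', hZ]; field_simp; ring
    have : D ≤ A * (W / t ^ 2) + B * t := by
      refine le_of_forall_pos_le_add fun η hη => ?_
      refine (step (min 1 (η / (Z + 1))) (by positivity) (min_le_left _ _)).trans ?_
      gcongr
      calc _ ≤ (Z + 1) * (η / (Z + 1)) := by gcongr; exacts [by linarith, min_le_right _ _]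
        _ = _ := by field_simp
    have a : 0 ≤ W / t ^ 2 := by positivity
    have b : A ≤ C := by rw [hC]; nlinarith
    have b' : B ≤ C := by rw [hC]; nlinarith
    calc _ ≤ _ := this
      _ ≤ C * (W / t ^ 2) + C * t := by gcongr
      _ = _ := by ring
  have sC : 0 < Real.sqrt (2 * C) := Real.sqrt_pos.mpr (by positivity)
  have low : ENNReal.ofReal ((Real.sqrt D / Real.sqrt (2 * C)) ^ (1 / α)) ≤ W2 μ ν := by
    refine le_iInf fun γ => le_iInf fun h => ?_
    have pγ := coup_prob h.1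
    rw [lint_coup (coup_int hY (coup_ae hμ hν h.1 h.2))]
    refine ENNReal.ofReal_le_ofReal ?_
    rw [one_div, Real.rpow_inv_le_iff_of_pos (by positivity) (Real.sqrt_nonneg _) hα,
      div_le_iff₀ sC]
    refine Real.sqrt_le_iff.mpr ⟨by positivity, ?_⟩
    rw [mul_pow, Real.sq_sqrt (by positivity), mul_comm]
    exact main γ h.1 h.2
  have := ENNReal.rpow_le_rpow low hα.le
  rw [ENNReal.ofReal_rpow_of_nonneg (by positivity) hα.le, ← Real.rpow_mul (by positivity),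
    one_div_mul_cancel hα.ne', Real.rpow_one] at this
  refine le_trans (le_of_eq ?_) (mul_le_mul_right this _)
  change _ = ENNReal.ofReal _ * _
  rw [← ENNReal.ofReal_mul sC.le]
  congr 1
  field_simp

end Vale.Agent.P074
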