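import Vale.Agent.P074.Bary

namespace Vale.Agent.P074

open MeasureTheory Set Filter Topology
open scoped ENNReal RealInnerProductSpace

variable {d : ℕ} {ι : Type} [Fintype ι] [Nonempty ι]

lemma Bar_add {K : Set (EE d)} (hK : IsCompact K) {p : EE d → ℝ} (hp : Continuous p)
    (y : ι → EE d) (ψ : ι → ℝ) (w v : ι → EE d) (c : ℝ) :
    Bar K p y ψ (fun k => w k + c • v k) = Bar K p y ψ w + c * Bar K p y ψ v := by
  unfold Bar
  rw [Finset.mul_sum, ← Finset.sum_add_distrib]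
  refine Finset.sum_congr rfl fun k _ => ?_
  have s := cell_sub K y ψ k
  rw [← integral_const_mul, ← integral_add (intOn hK s (by fun_prop)) (intOn hK s (by fun_prop))]
  congr 1; ext x
  simp only [inner_add_left, inner_smul_left, conj_trivial]; ring

lemma Bar_bound {K : Set (EE d)} (hK : IsCompact K) {R : ℝ} (hKR : ∀ x ∈ K, ‖x‖ ≤ R)
    {V : ι → ℝ} {y : ι → EE d} {ψ : ι → ℝ} (h : Opt K V (fun _ => 1) y ψ) (v : ι → EE d) :
    |Bar K (fun _ => 1) y ψ v| ≤ ∑ k, ‖v k‖ * R * V k := by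
  refine (Finset.abs_sum_le_sum_abs _ _).trans (Finset.sum_le_sum fun k _ => ?_)
  have s := cell_sub K y ψ k
  have vb : ∀ x ∈ K, |⟪v k, x⟫| ≤ ‖v k‖ * R := fun x hx =>
    (abs_real_inner_le_norm _ x).trans (by gcongr; exact hKR x hx)
  rw [abs_le, ← h k, ← integral_const_mul, ← integral_neg]
  constructor
  · exact setIntegral_mono_on (intOn hK s (by fun_prop)) (intOn hK s (by fun_prop))
      (cell_meas hK _ _ _) fun x hx => by have := abs_le.mp (vb x hx.1); linarith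
  · exact setIntegral_mono_on (intOn hK s (by fun_prop)) (intOn hK s (by fun_prop))
      (cell_meas hK _ _ _) fun x hx => by have := abs_le.mp (vb x hx.1); linarith

lemma Phi_sub {K : Set (EE d)} (hK : IsCompact K) (V : ι → ℝ) {g : EE d → ℝ} (hg : Continuous g)
    (y : ι → EE d) (ψ : ι → ℝ) :
    Phi K V (fun x => 1 + g x) y ψ = Phi K V (fun _ => 1) y ψ + ∫ x in K, pot y ψ x * g x := by
  have := pot_cont y ψ
  unfold Phi
  rw [add_right_comm, ← integral_add (intOn hK subset_rfl (by fun_prop))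
    (intOn hK subset_rfl (by fun_prop))]
  congr 2; ext x; ring

lemma exists_M {K : Set (EE d)} {R : ℝ} (hR : 0 < R) (hKR : ∀ x ∈ K, ‖x‖ ≤ R) (y : ι → EE d) :
    ∃ M, 0 ≤ M ∧ ∀ x ∈ K, ∀ k l, ⟪y k, x⟫ - ⟪y l, x⟫ ≤ M := by
  obtain ⟨k0, hk0⟩ := Finite.exists_max fun k => ‖y k‖
  refine ⟨2 * (‖y k0‖ * R), by positivity, fun x hx k l => ?_⟩
  have vb : ∀ k, |⟪y k, x⟫| ≤ ‖y k0‖ * R := fun k =>
    (abs_real_inner_le_norm _ x).trans (by gcongr; exacts [hk0 k, hKR x hx])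
  have := abs_le.mp (vb k)
  have := abs_le.mp (vb l)
  linarith

lemma tele {K : Set (EE d)} (hK : IsCompact K) (hc : Convex ℝ K) {R : ℝ} (hR : 0 < R)
    (hKR : ∀ x ∈ K, ‖x‖ ≤ R) {g : EE d → ℝ} (hg : Continuous g)
    (hg2 : ∀ x ∈ K, |g x| ≤ 1 / 2) (hg0 : ∫ x in K, g x = 0) {V : ι → ℝ} (hV : ∀ k, 0 < V k)
    (hs : ∑ k, V k = ∫ _x in K, (1 : ℝ)) {y v : ι → EE d}
    (hy : ∀ τ : ℚ, Function.Injective fun k => y k + (τ : ℝ) • v k) {ψ χ : ι → ℝ}
    (h0 : Opt K V (fun _ => 1) y ψ) (h1 : Opt K V (fun x => 1 + g x) (fun k => y k + v k) χ)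
    {t : ℝ} (ht : 0 < t) :
    t * ((∫ x in K, pot (fun k => y k + v k) χ x * g x) - ∫ x in K, pot y ψ x * g x)
      ≤ 18002 * t ^ 2 * R ^ 2 * (∑ k, V k * ‖v k‖ ^ 2) + 57 * ∫ x in K, g x ^ 2 := by
  obtain ⟨β, hβ⟩ : ∃ β, β = 18002 * t ^ 2 * R ^ 2 * (∑ k, V k * ‖v k‖ ^ 2)
    + 57 * ∫ x in K, g x ^ 2 := ⟨_, rfl⟩
  obtain ⟨B, hB⟩ : ∃ B, B = ∑ k, ‖v k‖ * R * V k := ⟨_, rfl⟩
  have c0 : Continuous fun _ : EE d => (1 : ℝ) := continuous_const
  have c1 : Continuous fun x => 1 + g x := by fun_prop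
  have n0 : ∀ x ∈ K, 0 ≤ (fun _ : EE d => (1 : ℝ)) x := fun _ _ => zero_le_one
  have n1 : ∀ x ∈ K, 0 ≤ (fun x => 1 + g x) x := fun x hx => by
    have := abs_le.mp (hg2 x hx); simp only; linarith
  have hs1 : ∑ k, V k = ∫ x in K, (1 + g x) := by
    rw [integral_add (intOn hK subset_rfl c0) (intOn hK subset_rfl hg), hg0, add_zero, hs]
  obtain ⟨Y, hY⟩ : ∃ Y : ℚ → ι → EE d, Y = fun (τ : ℚ) k => y k + (τ : ℝ) • v k := ⟨_, rfl⟩
  have hY' : ∀ τ, Function.Injective (Y τ) := by rw [hY]; exact hy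
  have ex : ∀ τ, ∃ a b, Opt K V (fun _ => 1) (Y τ) a ∧ Opt K V (fun x => 1 + g x) (Y τ) b := by
    intro τ
    obtain ⟨M, M0, hM⟩ := exists_M hR hKR (Y τ)
    obtain ⟨a, -, ha⟩ := exists_opt hK (fun k => (hV k).le) c0 n0 hs (hY' τ) M0 hM
    obtain ⟨b, -, hb⟩ := exists_opt hK (fun k => (hV k).le) c1 n1 hs1 (hY' τ) M0 hM
    exact ⟨a, b, ha, hb⟩
  choose a b ha hb using ex
  obtain ⟨D, hD⟩ : ∃ D : ℚ → ℝ, D = fun τ => Phi K V (fun x => 1 + g x) (Y τ) (b τ)
    - Phi K V (fun _ => 1) (Y τ) (a τ) := ⟨_, rfl⟩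
  obtain ⟨B0, hB0⟩ : ∃ B0 : ℚ → ℝ, B0 = fun τ => Bar K (fun _ => 1) (Y τ) (a τ) v := ⟨_, rfl⟩
  have step : ∀ τ h : ℚ, 0 ≤ h →
      t * (D (τ + h) - h * B0 (τ + h)) ≤ t * (D τ - h * B0 τ) + h * β := by
    intro τ h hh
    have hh' : (0 : ℝ) ≤ h := by exact_mod_cast hh
    have e1 : Y (τ + h) = fun k => Y τ k + (h : ℝ) • v k := by
      rw [hY]; ext1 k; simp only; push_cast; rw [add_smul, add_assoc]
    have e2 : Y τ = fun k => Y (τ + h) k + (-h : ℝ) • v k := by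
      rw [e1]; ext1 k; simp
    have a1 := dual_le hK c0 n0 (hY' τ) (ha τ) (Y (τ + h)) (a (τ + h))
    have a2 := dual_le hK c1 n1 (hY' (τ + h)) (hb (τ + h)) (Y τ) (b τ)
    have a3 : Bar K (fun _ => 1) (Y τ) (a τ) (Y (τ + h))
        = Phi K V (fun _ => 1) (Y τ) (a τ) + h * B0 τ := by
      rw [dual_eq hK c0 (hY' τ) (ha τ), hB0, ← Bar_add hK c0, ← e1]
    have a4 : Bar K (fun x => 1 + g x) (Y (τ + h)) (b (τ + h)) (Y τ)
        = Phi K V (fun x => 1 + g x) (Y (τ + h)) (b (τ + h))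
          + (-h : ℝ) * Bar K (fun x => 1 + g x) (Y (τ + h)) (b (τ + h)) v := by
      rw [dual_eq hK c1 (hY' _) (hb _), ← Bar_add hK c1, ← e2]
    have a5 := mul_le_mul_of_nonneg_left
      (bary hK hc hR hKR hg hg2 hV (hY' (τ + h)) (ha _) (hb _) v ht) hh'
    rw [← hβ] at a5
    rw [a3] at a1
    rw [a4] at a2
    have a6 := mul_le_mul_of_nonneg_left (add_le_add a1 a2) ht.le
    simp only [hD, hB0] at *
    linarith
  have ind : ∀ h : ℚ, 0 ≤ h → ∀ j : ℕ,
      t * (D (j * h) - h * B0 (j * h)) ≤ t * (D 0 - h * B0 0) + j * h * β := by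
    intro h hh j
    induction j with
    | zero => simp
    | succ j ih =>
      have := step (j * h) h hh
      push_cast
      rw [add_mul, one_mul]
      linarith
  have bb : ∀ τ, |B0 τ| ≤ B := fun τ => by rw [hB0, hB]; exact Bar_bound hK hKR (ha τ) v
  have fin : t * (D 1 - D 0) ≤ β := by
    refine ge_of_tendsto' (x := atTop) (f := fun n : ℕ => β + 2 * t * B * (1 / ((n : ℝ) + 1)))
      (by simpa using (tendsto_one_div_add_atTop_nhds_zero_nat.const_mul (2 * t * B)).const_add β)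
      fun n => ?_
    have := ind (1 / ((n : ℚ) + 1)) (by positivity) (n + 1)
    have e : ((n + 1 : ℕ) : ℚ) * (1 / ((n : ℚ) + 1)) = 1 := by push_cast; field_simp
    have e' : ((n + 1 : ℕ) : ℝ) * ((1 / ((n : ℚ) + 1) : ℚ) : ℝ) = 1 := by push_cast; field_simp
    rw [e, e'] at this
    push_cast at this
    have hp : (0 : ℝ) ≤ t * (1 / ((n : ℝ) + 1)) := by positivity
    have q1 := mul_le_mul_of_nonneg_left (abs_le.mp (bb 1)).2 hp
    have q2 := mul_le_mul_of_nonneg_left (abs_le.mp (bb 0)).1 hp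
    linarith
  have y0 : Y 0 = y := by rw [hY]; ext1 k; simp
  have y1 : Y 1 = fun k => y k + v k := by rw [hY]; ext1 k; simp
  have i1 : Function.Injective fun k => y k + v k := by rw [← y1]; exact hY' 1
  have i0 : Function.Injective y := by rw [← y0]; exact hY' 0
  have f1 := dual_le hK c0 n0 (hY' 1) (ha 1) (Y 1) χ
  have f2 := dual_le hK c1 n1 i1 h1 (fun k => y k + v k) (b 1)
  have f3 := dual_le hK c1 n1 (hY' 0) (hb 0) (Y 0) ψ
  have f4 := dual_le hK c0 n0 i0 h0 y (a 0)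
  rw [← dual_eq hK c0 (hY' 1) (ha 1)] at f1
  rw [← dual_eq hK c1 i1 h1, Phi_sub hK V hg] at f2
  rw [← dual_eq hK c1 (hY' 0) (hb 0), Phi_sub hK V hg _ ψ] at f3
  rw [← dual_eq hK c0 i0 h0] at f4
  rw [← hβ]
  refine le_trans (mul_le_mul_of_nonneg_left ?_ ht.le) fin
  simp only [hD, y0, y1] at *
  linarith

lemma pot_uniq {K : Set (EE d)} (hK : IsCompact K) (hc : Convex ℝ K) {V : ι → ℝ}
    {z : ι → EE d} (hz : Function.Injective z) {χ χ' : ι → ℝ} (h : Opt K V (fun _ => 1) z χ)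
    (e : Phi K V (fun _ => 1) z χ' ≤ Phi K V (fun _ => 1) z χ) {F : EE d → ℝ}
    (hF0 : ∫ x in K, F x = 0) : ∫ x in K, (pot z χ' x - pot z χ x) * F x = 0 := by
  have c0 : Continuous fun _ : EE d => (1 : ℝ) := continuous_const
  have hq := pot_cont z χ
  have hq' := pot_cont z χ'
  have g := dual_gap hK c0 hz h z χ'
  rw [← dual_eq hK c0 hz h] at g
  have nn : ∀ k, ∀ x, 0 ≤ (pot z χ' x - (⟪z k, x⟫ - χ' k)) * 1 := fun k x => by
    have := pot_ge z χ' x k; linarith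
  have z0 := (Finset.sum_eq_zero_iff_of_nonneg (s := Finset.univ)
    (f := fun k => ∫ x in cell K z χ k, (pot z χ' x - (⟪z k, x⟫ - χ' k)) * 1)
    fun k _ => integral_nonneg (nn k)).mp
    (le_antisymm (by linarith) (Finset.sum_nonneg fun k _ => integral_nonneg (nn k)))
  have ae1 : ∀ k, ∀ᵐ x, x ∈ cell K z χ k → pot z χ' x - pot z χ x ∈ range fun k => χ k - χ' k := by
    intro k
    have := (setIntegral_eq_zero_iff_of_nonneg_ae (ae_of_all _ (nn k))
      (intOn hK (cell_sub K z χ k) (by fun_prop))).mp (z0 k (Finset.mem_univ k))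
    filter_upwards [(ae_restrict_iff' (cell_meas hK z χ k)).mp this] with x hx hxk
    have a := hx hxk
    have b := cell_eq hxk
    simp only [Pi.zero_apply] at a
    exact ⟨k, by simp only; linarith⟩
  have ae2 : ∀ᵐ x, x ∈ K → pot z χ' x - pot z χ x ∈ range fun k => χ k - χ' k := by
    filter_upwards [ae_all_iff.mpr ae1] with x hx hxK
    rw [← cell_union K z χ] at hxK
    obtain ⟨k, hk⟩ := mem_iUnion.mp hxK
    exact hx k hk
  have fin : (range fun k => χ k - χ' k).Finite := finite_range _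
  have cf : Continuous fun x => pot z χ' x - pot z χ x := by fun_prop
  have all : MapsTo (fun x => pot z χ' x - pot z χ x) (interior K) (range fun k => χ k - χ' k) := by
    have op : IsOpen (interior K ∩ (fun x => pot z χ' x - pot z χ x) ⁻¹'
        (range fun k => χ k - χ' k)ᶜ) := isOpen_interior.inter (fin.isClosed.isOpen_compl.preimage cf)
    have := (op.measure_eq_zero_iff volume).mp (measure_eq_zero_iff_ae_notMem.mpr (by
      filter_upwards [ae2] with x h hx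
      exact hx.2 (h (interior_subset hx.1))))
    intro x hx
    by_contra hn
    exact (Set.eq_empty_iff_forall_notMem.mp this) x ⟨hx, hn⟩
  obtain ⟨c, hc'⟩ : ∃ c, ∀ x ∈ interior K, pot z χ' x - pot z χ x = c := by
    rcases (interior K).eq_empty_or_nonempty with h | ⟨x0, hx0⟩
    · exact ⟨0, by simp [h]⟩
    · exact ⟨_, fun x hx => hc.interior.isPreconnected.constant_of_mapsTo fin.isDiscrete
        cf.continuousOn all hx hx0⟩
  rw [setIntegral_congr_ae hK.measurableSet (g := fun x => c * F x) ?_, integral_const_mul, hF0,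
    mul_zero]
  have : ∀ᵐ x : EE d, x ∉ frontier K :=
    measure_eq_zero_iff_ae_notMem.mp (hc.addHaar_frontier volume)
  filter_upwards [this] with x hx hxK
  rw [hc' x (by_contra fun h => hx ⟨subset_closure hxK, h⟩)]

lemma var_le {K : Set (EE d)} (hK : IsCompact K) (hc : Convex ℝ K) {R : ℝ} (hR : 0 < R)
    (hKR : ∀ x ∈ K, ‖x‖ ≤ R) {V : ι → ℝ} (hV : ∀ k, 0 < V k)
    (hs : ∑ k, V k = ∫ _x in K, (1 : ℝ)) {y v : ι → EE d}
    (hy : ∀ τ : ℚ, Function.Injective fun k => y k + (τ : ℝ) • v k) {ψ χ : ι → ℝ}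
    (h0 : Opt K V (fun _ => 1) y ψ) (h1 : Opt K V (fun _ => 1) (fun k => y k + v k) χ) :
    ∃ c, ∫ x in K, (pot (fun k => y k + v k) χ x - pot y ψ x - c) ^ 2
      ≤ 5000000000 * R ^ 2 * ∑ k, V k * ‖v k‖ ^ 2 := by
  obtain ⟨z, hz⟩ : ∃ z, z = fun k => y k + v k := ⟨_, rfl⟩
  have iz : Function.Injective z := by rw [hz]; simpa using hy 1
  have T := fun g hg hg2 hg0 χ h1 t ht => tele hK hc hR hKR (g := g) hg hg2 hg0 hV hs hy (χ := χ) h0
    h1 (t := t) ht
  rw [← hz] at h1 T ⊢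
  have c0 : Continuous fun _ : EE d => (1 : ℝ) := continuous_const
  have n0 : ∀ x ∈ K, 0 ≤ (fun _ : EE d => (1 : ℝ)) x := fun _ _ => zero_le_one
  have hq := pot_cont z χ
  have hq' := pot_cont y ψ
  have hv : 0 < ∫ _x in K, (1 : ℝ) := by
    rw [← hs]; exact Finset.sum_pos (fun k _ => hV k) Finset.univ_nonempty
  obtain ⟨c, hc'⟩ : ∃ c, c = (∫ x in K, (pot z χ x - pot y ψ x)) / ∫ _x in K, (1 : ℝ) := ⟨_, rfl⟩
  refine ⟨c, ?_⟩
  obtain ⟨F, hF⟩ : ∃ F : EE d → ℝ, F = fun x => pot z χ x - pot y ψ x - c := ⟨_, rfl⟩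
  have cF : Continuous F := by rw [hF]; fun_prop
  have F0 : ∫ x in K, F x = 0 := by
    have : ∫ x in K, F x = ∫ x in K, (pot z χ x - pot y ψ x - c * 1) := by simp [hF]
    rw [this, integral_sub (intOn hK subset_rfl (by fun_prop)) (intOn hK subset_rfl (by fun_prop)),
      integral_const_mul, hc']
    field_simp; ring
  obtain ⟨I, hI⟩ : ∃ I, I = ∫ x in K, F x ^ 2 := ⟨_, rfl⟩
  obtain ⟨Q, hQ⟩ : ∃ Q, Q = ∑ k, V k * ‖v k‖ ^ 2 := ⟨_, rfl⟩
  have goal : ∫ x in K, (pot z χ x - pot y ψ x - c) ^ 2 = I := by rw [hI, hF]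
  rw [goal, ← hQ]
  rw [← hQ] at T
  obtain ⟨M, M0, hM⟩ := exists_M hR hKR z
  obtain ⟨h, hh⟩ : ∃ h : (ι → ℝ) → ℝ, h = fun φ => (∫ x in K, pot z φ x * F x)
    - ∫ x in K, pot z χ x * F x := ⟨_, rfl⟩
  have ch : Continuous h := by
    have := pint_cont hK cF z
    rw [hh]; fun_prop
  have cB : IsCompact (Icc (fun _ : ι => (0 : ℝ)) (fun _ => M)) := isCompact_Icc
  obtain ⟨H, hH⟩ := cB.exists_bound_of_continuousOn ch.continuousOn
  obtain ⟨FB, hFB⟩ := hK.exists_bound_of_continuousOn cF.continuousOn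
  have eI : I = (∫ x in K, pot z χ x * F x) - ∫ x in K, pot y ψ x * F x := by
    have : ∫ x in K, F x ^ 2 = ∫ x in K, (pot z χ x * F x - pot y ψ x * F x - c * F x) := by
      congr 1; ext x; rw [hF]; ring
    rw [hI, this, integral_sub (intOn hK subset_rfl (by fun_prop))
      (intOn hK subset_rfl (by fun_prop)), integral_sub (intOn hK subset_rfl (by fun_prop))
      (intOn hK subset_rfl (by fun_prop)), integral_const_mul, F0]
    ring
  refine le_of_forall_pos_le_add fun ε hε => ?_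
  obtain ⟨m, m0, hm⟩ : ∃ m, 0 < m ∧ ∀ φ ∈ Icc (fun _ : ι => (0 : ℝ)) (fun _ => M), h φ ≤ -(ε / 2) →
      Phi K V (fun _ => 1) z χ + m ≤ Phi K V (fun _ => 1) z φ := by
    rcases (Icc (fun _ : ι => (0 : ℝ)) (fun _ => M) ∩ {φ | h φ ≤ -(ε / 2)}).eq_empty_or_nonempty
      with e | ne
    · exact ⟨1, one_pos, fun φ a b => ((Set.eq_empty_iff_forall_notMem.mp e) φ ⟨a, b⟩).elim⟩
    · obtain ⟨φ0, h1', h2⟩ := (cB.inter_right (isClosed_le ch continuous_const)).exists_isMinOn ne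
        (Phi_cont hK V c0 z).continuousOn
      refine ⟨Phi K V (fun _ => 1) z φ0 - Phi K V (fun _ => 1) z χ, ?_, fun φ a b => ?_⟩
      · by_contra hn
        have := pot_uniq hK hc iz h1 (χ' := φ0) (by linarith) F0
        have hq2 := pot_cont z φ0
        simp_rw [sub_mul] at this
        rw [integral_sub (intOn hK subset_rfl (by fun_prop)) (intOn hK subset_rfl (by fun_prop))]
          at this
        have b : h φ0 ≤ -(ε / 2) := h1'.2
        rw [hh] at b
        simp only at b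
        linarith
      · have : Phi K V (fun _ => 1) z φ0 ≤ Phi K V (fun _ => 1) z φ := h2 ⟨a, b⟩
        linarith
  obtain ⟨s, s0, s1, s2⟩ : ∃ s : ℝ, 0 < s ∧ s * |FB| ≤ 1 / 2 ∧ s * |H| < m := by
    refine ⟨min (1 / (2 * (|FB| + 1))) (m / (|H| + 1)), by positivity, ?_, ?_⟩
    · calc _ ≤ 1 / (2 * (|FB| + 1)) * (|FB| + 1) := by gcongr; exacts [min_le_left _ _, by linarith]
        _ = _ := by field_simp
    · calc _ ≤ m / (|H| + 1) * |H| := by gcongr; exact min_le_right _ _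
        _ < m / (|H| + 1) * (|H| + 1) := by gcongr; linarith
        _ = _ := by field_simp
  have cg : Continuous fun x => s * F x := by fun_prop
  have g2 : ∀ x ∈ K, |s * F x| ≤ 1 / 2 := fun x hx => by
    rw [abs_mul, abs_of_pos s0]
    exact le_trans (mul_le_mul_of_nonneg_left ((hFB x hx).trans (le_abs_self _)) s0.le) s1
  have g0 : ∫ x in K, s * F x = 0 := by rw [integral_const_mul, F0, mul_zero]
  have c1 : Continuous fun x => 1 + s * F x := by fun_prop
  have n1 : ∀ x ∈ K, 0 ≤ (fun x => 1 + s * F x) x := fun x hx => by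
    have := abs_le.mp (g2 x hx); simp only; linarith
  obtain ⟨φ, hφ, oφ⟩ := exists_opt hK (fun k => (hV k).le) c1 n1 (by
    rw [integral_add (intOn hK subset_rfl c0) (intOn hK subset_rfl cg), g0, add_zero, hs]) iz M0 hM
  have pull : ∀ u : EE d → ℝ, ∫ x in K, u x * (s * F x) = s * ∫ x in K, u x * F x := fun u => by
    rw [← integral_const_mul]; congr 1; ext x; ring
  have hφε : -(ε / 2) < h φ := by
    by_contra hn
    have a := hm φ hφ (not_lt.mp hn)
    have b := dual_le hK c1 n1 iz oφ z χ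
    rw [← dual_eq hK c1 iz oφ, Phi_sub hK V cg, Phi_sub hK V cg, pull, pull] at b
    have c : -|H| ≤ h φ := (neg_le_neg (le_abs_self H)).trans (abs_le.mp (hH φ hφ)).1
    have := mul_le_mul_of_nonneg_left c s0.le
    rw [hh] at this
    simp only at this
    linarith
  have key := T _ cg g2 g0 φ oφ (114 * s) (by positivity)
  have e2 : ∫ x in K, (s * F x) ^ 2 = s ^ 2 * I := by
    rw [hI, ← integral_const_mul]; congr 1; ext x; ring
  rw [pull, pull, e2] at key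
  rw [hh] at hφε
  simp only at hφε
  have : s ^ 2 * (114 * (I - ε / 2)) ≤ s ^ 2 * (18002 * 114 ^ 2 * R ^ 2 * Q + 57 * I) := by
    have := mul_le_mul_of_nonneg_left hφε.le (sq_nonneg s)
    rw [eI] at key ⊢
    nlinarith
  have := le_of_mul_le_mul_left this (by positivity)
  have Q0 : 0 ≤ R ^ 2 * Q := by
    rw [hQ]; exact mul_nonneg (sq_nonneg _) (Finset.sum_nonneg fun k _ => by have := hV k; positivity)
  nlinarith

end Vale.Agent.P074
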